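import Vale.Agent.P245.Bdl.B2

/-! # P245, row PATHW: the path part of variant W (notes 10519, 10579, 10594)

Base `mu ρ0` (log-concave, compactly supported, `ExpM 1`), one constant `κ` on the window of levels
`[2δ, 3δ]`, no additive defect. -/

open MeasureTheory Real Set Filter Topology
open scoped ENNReal ContDiff

namespace Vale.Agent.P245.H440

open Vale.Agent.P245.LS Vale.Agent.P245.E1

variable {n : ℕ}

theorem thBootF (n : ℕ) : StBoot n := boot_of n (thK n) (thR' n) (thT' n) (thCo n) (thRv n)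
    (thG0' n) (thU' n) (thDn' n) (thP n) (thPathA' n)

theorem fi_nonneg (μ : Measure (Fin n → ℝ)) [IsProbabilityMeasure μ] {r : ℝ}
    {N : (Fin n → ℝ) → ℝ} (hN : Pos N) : 0 ≤ LS.FI μ r N := by
  rw [(thCo n μ r N hN).1.1]
  exact ((thCo n μ r N hN).2.1 (sN N) (sN N) (fun i => hN.div (hN.sb.pd i))
    (fun i => hN.div (hN.sb.pd i))).1

theorem ga_nonneg (μ : Measure (Fin n → ℝ)) [IsProbabilityMeasure μ] {r : ℝ}
    {N : (Fin n → ℝ) → ℝ} (hN : Pos N) : 0 ≤ LS.GA μ r N := by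
  rw [(thCo n μ r N hN).1.2]
  exact ((thCo n μ r N hN).2.1 (sN N) (sN N) (fun i => hN.div (hN.sb.pd i))
    (fun i => hN.div (hN.sb.pd i))).2.1

/-- (P1): the bootstrap iterated: the score of a near-maximiser is hidden -/
theorem pred_boot {ρ0 : (Fin n → ℝ) → ℝ} {R : ℝ} (hρ : LCd ρ0)
    [hprob : IsProbabilityMeasure (mu ρ0)] (hcs : CSupp (mu ρ0) R) (hexp : ExpM (mu ρ0) 1)
    {N : (Fin n → ℝ) → ℝ} {δ κ σ α x : ℝ} (hδ : 0 < δ) (hδκ : 2000 * δ ≤ κ)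
    (hDBS : DBS (mu ρ0) (2 * δ) δ κ 0) (hσ : σ ∈ Icc (2 * δ) (3 * δ)) (hN : Pos N)
    (hN1 : EY (mu ρ0) σ N = 1) (hα : 0 ≤ α) (hα4 : 10 ^ 4 * α ≤ κ * LS.FI (mu ρ0) σ N)
    (hdef : κ * LS.FI (mu ρ0) σ N - LS.HE (mu ρ0) σ N ≤ α)
    (hx : 2 * δ * LS.FI (mu ρ0) σ N ≤ x) :
    Pred (mu ρ0) σ N (sN N) x
      (800 / δ ^ 2 * (κ * LS.FI (mu ρ0) σ N + x) + 4000 * α / κ) := by
  have hκ : 0 < κ := by linarith only [hδ, hδκ]
  have hF0 : 0 ≤ LS.FI (mu ρ0) σ N := fi_nonneg _ hN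
  have hx0 : 0 ≤ x := le_trans (by positivity) hx
  set B : ℝ := 400 / δ ^ 2 * (κ * LS.FI (mu ρ0) σ N + x) + 2000 * α / κ with hB
  have hB0 : 0 ≤ B := by positivity
  have hHE : LS.HE (mu ρ0) σ N ≤ κ * LS.FI (mu ρ0) σ N := by
    have := hDBS σ ⟨hσ.1, by linarith only [hσ.2]⟩ N hN hN1
    linarith only [this]
  have htriv : ∀ l, Ch l → Inf (mu ρ0) σ N l ≤ x →
      Co (mu ρ0) σ N (sN N) l ≤ LS.FI (mu ρ0) σ N := by
    intro l hl _
    rw [(thCo n (mu ρ0) σ N hN).1.1]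
    exact (((thCo n (mu ρ0) σ N hN).2.2 hN1 l hl).2 (sN N) (fun i => hN.div (hN.sb.pd i))).2.1
  have key := contraction_close (ι := {l : (Fin n → ℝ) → (Fin n → ℝ) → ℝ //
      Ch l ∧ Inf (mu ρ0) σ N l ≤ x}) (P := fun l => Co (mu ρ0) σ N (sN N) l.1)
    (A := B) (N0 := LS.FI (mu ρ0) σ N) (fun l => htriv l.1 l.2.1 l.2.2) hF0 ?_ hB0
  · intro l hl hI
    have h := key ⟨l, hl, hI⟩
    refine h.trans (le_of_eq ?_)
    rw [hB]; ring
  · intro X hX hP l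
    have hX' : 0 ≤ min X (LS.FI (mu ρ0) σ N) := le_min hX hF0
    have h1 := thBootF n ρ0 R 1 hρ hprob hcs le_rfl hexp N δ κ σ α x
      (min X (LS.FI (mu ρ0) σ N)) 0 hδ hδκ hDBS hσ hN hN1 hα hα4
      (by linarith only [hdef]) hx hX' (min_le_right _ _)
      (fun l' hl' hI' => le_min (hP ⟨l', hl', hI'⟩) (htriv l' hl' hI')) l.1 l.2.1 l.2.2
    refine h1.trans ?_
    rw [Real.log_one, add_zero, hB]
    have h2 : min X (LS.FI (mu ρ0) σ N) / 2 ≤ X / 2 := by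
      have := min_le_left X (LS.FI (mu ρ0) σ N)
      linarith only [this]
    have h3 : 400 / δ ^ 2 * (LS.HE (mu ρ0) σ N + x)
        ≤ 400 / δ ^ 2 * (κ * LS.FI (mu ρ0) σ N + x) :=
      mul_le_mul_of_nonneg_left (by linarith only [hHE]) (by positivity)
    linarith only [h2, h3]

/-- the martingale field: `E_q[score at the bottom level s | Y_ρ]` on the down path -/
noncomputable def mf (μ : Measure (Fin n → ℝ)) (s T : ℝ) (N : (Fin n → ℝ) → ℝ) (ρ : ℝ) (i : Fin n) :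
    (Fin n → ℝ) → ℝ := UL μ s ρ (sN (PH (T - s) N) i)

/-- output of the row PATHW: a down path `ρ ↦ PH (T - ρ) N`, `ρ ∈ [s, T]`, of near-maximisers with
hidden scores, near-bottom at `s`, and its martingale field `mf`. All error terms are
`≤ C * FI μ T N / κ` (slack: `≤ C * FI μ T N`). -/
structure PathOut (μ : Measure (Fin n → ℝ)) (κ δ τ M C s T : ℝ) (N : (Fin n → ℝ) → ℝ) : Prop where
  T_eq : T = 5 / 2 * δ
  s_mem : s ∈ Icc (T - τ * κ) (T - τ * κ / 2)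
  s_ge : 2 * δ ≤ s
  pos : Pos N
  one : EY μ T N = 1
  fi : 0 < LS.FI μ T N
  posρ : ∀ ρ ∈ Icc s T, Pos (PH (T - ρ) N)
  oneρ : ∀ ρ ∈ Icc s T, EY μ ρ (PH (T - ρ) N) = 1
  he_le : ∀ ρ ∈ Icc s T, LS.HE μ ρ (PH (T - ρ) N) ≤ κ * LS.FI μ ρ (PH (T - ρ) N)
  slack : ∀ ρ ∈ Icc s T,
    κ * LS.FI μ ρ (PH (T - ρ) N) - LS.HE μ ρ (PH (T - ρ) N) ≤ C * LS.FI μ T N
  fi_le : ∀ ρ ∈ Icc s T, LS.FI μ ρ (PH (T - ρ) N) ≤ LS.FI μ T N
  fi_ge : ∀ ρ ∈ Icc s T, (1 - τ) * LS.FI μ T N ≤ LS.FI μ ρ (PH (T - ρ) N)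
  fi_drop : LS.FI μ T N - LS.FI μ s (PH (T - s) N)
    ≤ (T - s) / (2 * κ) * LS.FI μ T N + C * LS.FI μ T N / κ
  pred : ∀ ρ ∈ Icc s T, Pred μ ρ (PH (T - ρ) N) (sN (PH (T - ρ) N)) (M * κ * LS.FI μ T N)
    (C * LS.FI μ T N / κ)
  ga_ge : ∀ ρ ∈ Icc s T, LS.FI μ ρ (PH (T - ρ) N)
    ≤ 2 * κ * LS.GA μ ρ (PH (T - ρ) N) + C * LS.FI μ T N / κ
  bot : 2 * κ * LS.GA μ s (PH (T - s) N) ≤ LS.FI μ s (PH (T - s) N) + C * LS.FI μ T N / κ
  mf_sb : ∀ ρ ∈ Icc s T, ∀ i, SB (mf μ s T N ρ i)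
  mf_bot : ∀ i, mf μ s T N s i = sN (PH (T - s) N) i
  mf_le : ∀ ρ ∈ Icc s T, IP μ ρ (PH (T - ρ) N) (mf μ s T N ρ) (mf μ s T N ρ)
    ≤ LS.FI μ s (PH (T - s) N)
  mf_ge : ∀ ρ ∈ Icc s T, (1 - 2 * τ) * LS.FI μ T N
    ≤ IP μ ρ (PH (T - ρ) N) (mf μ s T N ρ) (mf μ s T N ρ)
  mf_pair : ∀ ρ ∈ Icc s T, IP μ ρ (PH (T - ρ) N) (mf μ s T N ρ) (sN (PH (T - ρ) N))
    = LS.FI μ s (PH (T - s) N)
  mf_pred : ∀ ρ ∈ Icc s T, Pred μ ρ (PH (T - ρ) N) (mf μ s T N ρ) (M * κ * LS.FI μ T N)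
    (C * LS.FI μ T N / κ)
  mf_near : ∀ ρ ∈ Icc s T, IP μ ρ (PH (T - ρ) N) (mf μ s T N ρ) (mf μ s T N ρ)
    ≤ 2 * κ * DE μ ρ (PH (T - ρ) N) (mf μ s T N ρ) + C * LS.FI μ T N / κ

/-- (P3), (P4): row PATHW -/
theorem pathW (C0 M τ : ℝ) (hC0 : 2000 ≤ C0) (hM : 1 ≤ M) (hτ : 0 < τ) (hτC : τ * C0 ≤ 1 / 2) :
    ∃ C K : ℝ, 0 < C ∧ 0 < K ∧ ∀ (n : ℕ) (ρ0 : (Fin n → ℝ) → ℝ) (R κ : ℝ), LCd ρ0 →
      IsProbabilityMeasure (mu ρ0) → CSupp (mu ρ0) R → ExpM (mu ρ0) 1 → K ≤ κ →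
      DBS (mu ρ0) (2 * (κ / C0)) (κ / C0) κ 0 →
      ∀ (σ : ℝ) (N0 : (Fin n → ℝ) → ℝ), σ ∈ Icc (2 * (κ / C0)) (3 * (κ / C0)) → Pos N0 →
        EY (mu ρ0) σ N0 = 1 → 0 < LS.FI (mu ρ0) σ N0 →
        (κ - 1) * LS.FI (mu ρ0) σ N0 ≤ LS.HE (mu ρ0) σ N0 →
        ∃ (s T : ℝ) (N : (Fin n → ℝ) → ℝ), PathOut (mu ρ0) κ (κ / C0) τ M C s T N := by
  set A1 : ℝ := 800 * C0 ^ 2 * (1 + M) + 4000 with hA1
  set A2 : ℝ := 10 + 8 * A1 / C0 with hA2
  set A3 : ℝ := 800 * C0 ^ 2 * (1 + M) + 8000 * A2 with hA3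
  set A4 : ℝ := 20 * A2 + 8 * A3 / C0 with hA4
  set C : ℝ := A3 + A4 + 4 * A4 / τ + 2 * A4 * C0 with hC
  have hC00 : 0 < C0 := by linarith only [hC0]
  have hA1p : 0 < A1 := by positivity
  have hA2p : 0 < A2 := by positivity
  have hA3p : 0 < A3 := by positivity
  have hA4p : 0 < A4 := by positivity
  have hA4t : 0 < A4 / τ := by positivity
  have hA4C : 0 < A4 * C0 := by positivity
  have hCp : 0 < C := by positivity
  refine ⟨C, 10 ^ 4 + A1 + 10 ^ 4 * (2 * A2) + A3 + 4 * A2 / τ, hCp, by positivity, ?_⟩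
  intro n ρ0 R κ hρ hprob hcs hexp hK hDBS σ N0 hσ hN0 hN01 hF0 hnear
  have := hprob
  set μ := mu ρ0 with hμ
  have hA2t : 0 < A2 / τ := by positivity
  have hκ4 : 10 ^ 4 ≤ κ := by
    have : (4 * A2 / τ : ℝ) = 4 * (A2 / τ) := by ring
    linarith only [hK, hA1p, hA2p, hA3p, hA2t, this]
  have hκA1 : A1 ≤ κ := by
    have : (4 * A2 / τ : ℝ) = 4 * (A2 / τ) := by ring
    linarith only [hK, hA1p, hA2p, hA3p, hA2t, this]
  have hκA2 : 10 ^ 4 * (2 * A2) ≤ κ := by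
    have : (4 * A2 / τ : ℝ) = 4 * (A2 / τ) := by ring
    linarith only [hK, hA1p, hA2p, hA3p, hA2t, this]
  have hκA3 : A3 ≤ κ := by
    have : (4 * A2 / τ : ℝ) = 4 * (A2 / τ) := by ring
    linarith only [hK, hA1p, hA2p, hA3p, hA2t, this]
  have hκA2t : 4 * A2 / τ ≤ κ := by
    linarith only [hK, hA1p, hA2p, hA3p, hA2t]
  have hκ : 0 < κ := by linarith only [hκ4]
  set δ : ℝ := κ / C0 with hδdef
  have hδ : 0 < δ := by positivity
  have hδκ : 2000 * δ ≤ κ := by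
    rw [hδdef, mul_div_assoc', div_le_iff₀ hC00]
    have := mul_le_mul_of_nonneg_left hC0 hκ.le
    linarith only [this]
  have hδC : δ * C0 = κ := by rw [hδdef]; field_simp
  have e1 : ∀ F : ℝ, 800 / δ ^ 2 * (κ * F + M * κ * F) = 800 * C0 ^ 2 * (1 + M) * F / κ := by
    intro F
    rw [hδdef]
    field_simp
  set F0 := LS.FI μ σ N0 with hF0def
  -- step 1: boot at `σ`
  have hx0 : 2 * δ * F0 ≤ M * κ * F0 := by
    apply mul_le_mul_of_nonneg_right _ hF0.le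
    have := mul_le_mul_of_nonneg_right hM hκ.le
    linarith only [this, hδκ, hδ]
  have b1 := pred_boot hρ hcs hexp (α := F0) (x := M * κ * F0) hδ hδκ hDBS hσ hN0 hN01 hF0.le
    (mul_le_mul_of_nonneg_right hκ4 hF0.le) (by
      rw [← hF0def]; linarith only [hnear]) hx0
  rw [← hF0def] at b1
  have e2 : 800 / δ ^ 2 * (κ * F0 + M * κ * F0) + 4000 * F0 / κ = A1 * F0 / κ := by
    rw [e1, hA1]; ring
  rw [e2] at b1
  have hX1 : A1 * F0 / κ ≤ F0 := by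
    rw [div_le_iff₀ hκ, mul_comm F0 κ]
    exact mul_le_mul_of_nonneg_right hκA1 hF0.le
  -- step 2: up to the level `T`
  obtain ⟨-, -, hup⟩ := thPathA' n ρ0 R hρ hprob hcs N0 (PH (σ - 2 * δ) N0) δ κ σ F0
    (M * κ * F0) (A1 * F0 / κ) 0 hδ hδκ hDBS hσ hN0 hN01 hF0.le
    (mul_le_mul_of_nonneg_right hκ4 hF0.le) (by
      rw [← hF0def]; linarith only [hnear]) hx0 (by positivity) hX1 b1 rfl
  set T : ℝ := 5 / 2 * δ with hTdef
  have hT : T ∈ Icc (2 * δ) (3 * δ) := ⟨by rw [hTdef]; linarith only [hδ], by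
    rw [hTdef]; linarith only [hδ]⟩
  obtain ⟨u1, u2, u3, u4, u5, u6, -, -⟩ := hup T hT
  set U := UL μ (2 * δ) T (PH (σ - 2 * δ) N0) with hU
  set F := LS.FI μ T U with hF
  have hF98 : 98 / 100 * F0 ≤ F := u6
  have hFp : 0 < F := by linarith only [hF98, hF0]
  have hα1 : 10 * F0 + 8 * δ * (A1 * F0 / κ) = A2 * F0 := by
    rw [hA2, hδdef]; field_simp
  rw [hα1] at u4
  have hα2 : κ * F - LS.HE μ T U ≤ 2 * A2 * F := by
    have : A2 * (98 / 100 * F0) ≤ A2 * F := mul_le_mul_of_nonneg_left hF98 hA2p.le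
    have h2 : 0 < A2 * F := by positivity
    linarith only [u4, this, h2]
  -- step 3: boot at `T`
  have hx1 : 2 * δ * F ≤ M * κ * F := by
    apply mul_le_mul_of_nonneg_right _ hFp.le
    have := mul_le_mul_of_nonneg_right hM hκ.le
    linarith only [this, hδκ, hδ]
  have hα4 : 10 ^ 4 * (2 * A2 * F) ≤ κ * F := by
    have := mul_le_mul_of_nonneg_right hκA2 hFp.le
    linarith only [this]
  have b2 := pred_boot hρ hcs hexp (α := 2 * A2 * F) (x := M * κ * F) hδ hδκ hDBS hT u1 u2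
    (by positivity) hα4 hα2 hx1
  rw [← hF] at b2
  have e3 : 800 / δ ^ 2 * (κ * F + M * κ * F) + 4000 * (2 * A2 * F) / κ = A3 * F / κ := by
    rw [e1, hA3]; ring
  rw [e3] at b2
  have hX2 : A3 * F / κ ≤ F := by
    rw [div_le_iff₀ hκ, mul_comm F κ]
    exact mul_le_mul_of_nonneg_right hκA3 hFp.le
  -- step 4: the down path from `T`
  obtain ⟨-, hdn, -⟩ := thPathA' n ρ0 R hρ hprob hcs U (PH (T - 2 * δ) U) δ κ T (2 * A2 * F)
    (M * κ * F) (A3 * F / κ) 0 hδ hδκ hDBS hT u1 u2 (by positivity) hα4 (by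
      rw [← hF]; linarith only [hα2]) hx1 (by positivity) hX2 b2 rfl
  have hα5 : 10 * (2 * A2 * F) + 8 * δ * (A3 * F / κ) = A4 * F := by
    rw [hA4, hδdef]; field_simp; ring
  rw [hα5] at hdn
  have hτκ : τ * κ ≤ δ / 2 := by
    rw [← hδC]
    have := mul_le_mul_of_nonneg_left hτC hδ.le
    linarith only [this]
  have hτκ0 : 0 < τ * κ := by positivity
  have hlow : 2 * δ ≤ T - τ * κ := by rw [hTdef]; linarith only [hτκ]
  have hδ2 : 0 < 2 * δ := by positivity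
  obtain ⟨cH, cJ, dH, dJ, hφ⟩ := thDn' n μ R hcs U (2 * δ) T u1 hδ2 hT.1
  set H : ℝ → ℝ := fun ρ => LS.HE μ ρ (PH (T - ρ) U) with hHdef
  set J : ℝ → ℝ := fun ρ => LS.FI μ ρ (PH (T - ρ) U) with hJdef
  set Γ : ℝ → ℝ := fun ρ => LS.GA μ ρ (PH (T - ρ) U) with hΓdef
  have hPHT : PH (T - T) U = U := by rw [sub_self, PH_zero]
  have hHT : H T = LS.HE μ T U := by show LS.HE μ T (PH (T - T) U) = _; rw [hPHT]
  have hJT : J T = F := by show LS.FI μ T (PH (T - T) U) = _; rw [hPHT]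
  have hJ1 : ∀ ρ ∈ Icc (2 * δ) T, J ρ ≤ F := fun ρ h => (hdn ρ h).2.2.2.2.1
  have hsl : ∀ ρ ∈ Icc (2 * δ) T, 0 ≤ κ * J ρ - H ρ ∧ κ * J ρ - H ρ ≤ A4 * F := by
    intro ρ h
    obtain ⟨-, -, h3, h4, -⟩ := hdn ρ h
    constructor
    · show 0 ≤ κ * LS.FI μ ρ (PH (T - ρ) U) - LS.HE μ ρ (PH (T - ρ) U)
      linarith only [h3]
    · show κ * LS.FI μ ρ (PH (T - ρ) U) - LS.HE μ ρ (PH (T - ρ) U) ≤ A4 * F
      linarith only [h4]
  have hTT : T ∈ Icc (2 * δ) T := ⟨hT.1, le_rfl⟩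
  -- entropy drop
  have hHd : ∀ ρ ∈ Icc (2 * δ) T, H T - H ρ ≤ F / 2 * (T - ρ) := by
    have h1 := mono_of_deriv (f := fun v => F / 2 * v - H v)
      (f' := fun v => F / 2 * 1 - 1 / 2 * J v) (a := 2 * δ) (b := T)
      ((Continuous.continuousOn (by fun_prop)).sub cH)
      (fun v hv => ((hasDerivAt_id v).const_mul (F / 2)).sub (dH v hv))
      (fun v hv => by
        have := hJ1 v ⟨hv.1.le, hv.2.le⟩
        linarith only [this])
    intro ρ h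
    have h2 := h1 h hTT h.2
    simp only at h2
    linarith only [h2]
  have hJlow : ∀ ρ ∈ Icc (2 * δ) T, F - J ρ ≤ (T - ρ) / (2 * κ) * F + 2 * A2 * F / κ := by
    intro ρ h
    have h1 := (hsl ρ h).1
    have h2 := hHd ρ h
    have h3 : κ * F - H T ≤ 2 * A2 * F := by rw [hHT]; exact hα2
    have h4 : κ * (F - J ρ) ≤ F / 2 * (T - ρ) + 2 * A2 * F := by linarith only [h1, h2, h3]
    have h5 : F - J ρ ≤ (F / 2 * (T - ρ) + 2 * A2 * F) / κ := by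
      rw [le_div_iff₀ hκ]; linarith only [h4]
    refine h5.trans (le_of_eq ?_)
    field_simp
  -- the bottom level
  set a : ℝ := T - τ * κ with ha
  set b : ℝ := T - τ * κ / 2 with hb
  have hab : a < b := by rw [ha, hb]; linarith only [hτκ0]
  have hsub : ∀ v ∈ Icc a b, v ∈ Icc (2 * δ) T := fun v hv =>
    ⟨hlow.trans hv.1, hv.2.trans (by rw [hb]; linarith only [hτκ0])⟩
  obtain ⟨s, hs, hsd⟩ := exists_hasDerivAt_eq_slope (fun v => κ * J v - H v)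
    (fun v => κ * Γ v - 1 / 2 * J v) hab
    (((continuousOn_const.mul cJ).sub cH).mono fun v hv => hsub v hv)
    (fun v hv => ((dJ v ⟨by
        have := hv.1
        linarith only [this, hlow], by
        have := hv.2
        have h2 : b < T := by rw [hb]; linarith only [hτκ0]
        linarith only [this, h2]⟩).const_mul κ).sub (dH v ⟨by
        have := hv.1
        linarith only [this, hlow], by
        have := hv.2
        have h2 : b < T := by rw [hb]; linarith only [hτκ0]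
        linarith only [this, h2]⟩))
  have hsI : s ∈ Icc (2 * δ) T := hsub s ⟨hs.1.le, hs.2.le⟩
  have hsT : s ≤ T := hsI.2
  have hs0 : 0 < s := hδ2.trans_le hsI.1
  have hbot : 2 * κ * Γ s ≤ J s + 4 * A4 / τ * F / κ := by
    have h1 := (hsl b (hsub b ⟨hab.le, le_rfl⟩)).2
    have h2 := (hsl a (hsub a ⟨le_rfl, hab.le⟩)).1
    have hba : b - a = τ * κ / 2 := by rw [ha, hb]; ring
    have h3 : κ * Γ s - 1 / 2 * J s ≤ A4 * F / (τ * κ / 2) := by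
      rw [hsd, hba]
      exact div_le_div_of_nonneg_right (by linarith only [h1, h2]) (by positivity)
    have e4 : A4 * F / (τ * κ / 2) = 2 * A4 / τ * F / κ := by field_simp
    rw [e4] at h3
    have e5 : 4 * A4 / τ * F / κ = 2 * (2 * A4 / τ * F / κ) := by ring
    rw [e5]
    linarith only [h3]
  have hsub' : ∀ ρ ∈ Icc s T, ρ ∈ Icc (2 * δ) T := fun ρ h => ⟨hsI.1.trans h.1, h.2⟩
  have hTs : ∀ ρ ∈ Icc s T, T - ρ ≤ τ * κ := fun ρ h => by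
    have h1 := h.1
    have h2 := hs.1
    linarith only [h1, h2, ha]
  have hFκ : 0 < F / κ := by positivity
  have hCA3 : A3 * F / κ ≤ C * F / κ := by
    apply div_le_div_of_nonneg_right _ hκ.le
    apply mul_le_mul_of_nonneg_right _ hFp.le
    have e : (4 * A4 / τ : ℝ) = 4 * (A4 / τ) := by ring
    have e' : (2 * A4 * C0 : ℝ) = 2 * (A4 * C0) := by ring
    linarith only [hC, hA4p, hA4t, hA4C, e, e']
  have hCA4 : A4 * F ≤ C * F := by
    apply mul_le_mul_of_nonneg_right _ hFp.le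
    have e : (4 * A4 / τ : ℝ) = 4 * (A4 / τ) := by ring
    have e' : (2 * A4 * C0 : ℝ) = 2 * (A4 * C0) := by ring
    linarith only [hC, hA3p, hA4t, hA4C, e, e']
  have hCb : 4 * A4 / τ * F / κ ≤ C * F / κ := by
    apply div_le_div_of_nonneg_right _ hκ.le
    apply mul_le_mul_of_nonneg_right _ hFp.le
    have e' : (2 * A4 * C0 : ℝ) = 2 * (A4 * C0) := by ring
    linarith only [hC, hA4p, hA3p, hA4C, e']
  have hCn : A3 * F / κ + 2 * (A4 * F) / δ ≤ C * F / κ := by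
    have e6 : A3 * F / κ + 2 * (A4 * F) / δ = (A3 + 2 * A4 * C0) * F / κ := by
      rw [hδdef]; field_simp
    rw [e6]
    apply div_le_div_of_nonneg_right _ hκ.le
    apply mul_le_mul_of_nonneg_right _ hFp.le
    have e : (4 * A4 / τ : ℝ) = 4 * (A4 / τ) := by ring
    linarith only [hC, hA4p, hA4t, e]
  have hCd : 2 * A2 * F / κ ≤ C * F / κ := by
    apply div_le_div_of_nonneg_right _ hκ.le
    apply mul_le_mul_of_nonneg_right _ hFp.le
    have e : (4 * A4 / τ : ℝ) = 4 * (A4 / τ) := by ring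
    have e' : (2 * A4 * C0 : ℝ) = 2 * (A4 * C0) := by ring
    have e7 : A4 = 20 * A2 + 8 * (A3 / C0) := by rw [hA4]; ring
    have e8 : 0 < A3 / C0 := by positivity
    linarith only [hC, hA3p, hA2p, hA4t, hA4C, e, e', e7, e8]
  -- the martingale field
  have hsn : ∀ ρ ∈ Icc s T, ∀ i, SB (sN (PH (T - ρ) U) i) := fun ρ h i => by
    have h1 := (hdn ρ (hsub' ρ h)).1
    exact h1.div (h1.sb.pd i)
  have hss : s ∈ Icc s T := ⟨le_rfl, hsT⟩
  have hmsb : ∀ ρ ∈ Icc s T, ∀ i, SB (mf μ s T U ρ i) := fun ρ h i =>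
    ((thR' n μ R hcs).2.2 s ρ hs0 h.1).1 _ (hsn s hss i)
  have hmbot : ∀ i, mf μ s T U s i = sN (PH (T - s) U) i := fun i =>
    (thK n μ R hcs).2.1 s _ hs0
  obtain ⟨_, _, _, _, hφs⟩ := thDn' n μ R hcs U s T u1 hs0 hsT
  obtain ⟨c2, d2, hpair⟩ := hφs (fun i => sN (PH (T - s) U) i) (hsn s hss)
  have hDE0 : ∀ ρ ∈ Icc s T, 0 ≤ DE μ ρ (PH (T - ρ) U) (mf μ s T U ρ) := fun ρ h =>
    ((thCo n μ ρ _ (hdn ρ (hsub' ρ h)).1).2.1 (mf μ s T U ρ) (mf μ s T U ρ)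
      (hmsb ρ h) (hmsb ρ h)).2.1
  have hIPs : IP μ s (PH (T - s) U) (mf μ s T U s) (mf μ s T U s) = J s := by
    have e : mf μ s T U s = sN (PH (T - s) U) := by funext i; exact hmbot i
    rw [e]
    exact ((thCo n μ s _ (hdn s hsI).1).1.1).symm
  have hmle : ∀ ρ ∈ Icc s T, IP μ ρ (PH (T - ρ) U) (mf μ s T U ρ) (mf μ s T U ρ) ≤ J s := by
    have h1 := mono_of_deriv
      (f := fun ρ => -IP μ ρ (PH (T - ρ) U) (mf μ s T U ρ) (mf μ s T U ρ))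
      (f' := fun ρ => DE μ ρ (PH (T - ρ) U) (mf μ s T U ρ)) (a := s) (b := T)
      c2.neg (fun v hv => ((d2 v hv).neg).congr_deriv (neg_neg _))
      (fun v hv => hDE0 v ⟨hv.1.le, hv.2.le⟩)
    intro ρ h
    have h2 := h1 hss h h.1
    simp only at h2
    rw [hIPs] at h2
    linarith only [h2]
  have hmpair : ∀ ρ ∈ Icc s T, IP μ ρ (PH (T - ρ) U) (mf μ s T U ρ) (sN (PH (T - ρ) U)) = J s := by
    intro ρ h
    have h1 := hpair ρ h
    have e : (fun i => sN (PH (T - s) U) i) = sN (PH (T - s) U) := rfl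
    rw [e] at h1
    have h2 : IP μ s (PH (T - s) U) (sN (PH (T - s) U)) (sN (PH (T - s) U)) = J s :=
      ((thCo n μ s _ (hdn s hsI).1).1.1).symm
    rw [h2] at h1
    exact h1
  have hJge : ∀ ρ ∈ Icc s T, (1 - τ) * F ≤ J ρ := by
    intro ρ h
    have h1 := hJlow ρ (hsub' ρ h)
    have h2 : (T - ρ) / (2 * κ) * F ≤ τ / 2 * F := by
      apply mul_le_mul_of_nonneg_right _ hFp.le
      rw [div_le_iff₀ (by positivity)]
      have := hTs ρ h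
      linarith only [this]
    have h3 : 2 * A2 * F / κ ≤ τ / 2 * F := by
      rw [div_le_iff₀ hκ]
      have h4 : 4 * A2 ≤ κ * τ := by rwa [div_le_iff₀ hτ] at hκA2t
      have := mul_le_mul_of_nonneg_right h4 hFp.le
      linarith only [this]
    linarith only [h1, h2, h3]
  have hmpred : ∀ ρ ∈ Icc s T, Pred μ ρ (PH (T - ρ) U) (mf μ s T U ρ) (M * κ * F)
      (A3 * F / κ) := by
    intro ρ h
    have h1 := (thT' n μ R hcs (PH (T - ρ) U) s ρ (M * κ * F) (A3 * F / κ)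
      (hdn ρ (hsub' ρ h)).1 hs0 h.1).2.2.2 (hdn ρ (hsub' ρ h)).2.1
      (fun i => sN (PH (T - s) U) i) (hsn s hss)
    have e : PH (ρ - s) (PH (T - ρ) U) = PH (T - s) U := by
      rw [PH_PH u1.sb (by linarith only [h.1]) (by linarith only [h.2])]
      congr 1
      ring
    rw [e] at h1
    exact h1 (hdn s hsI).2.2.2.2.2.2
  have hsT0 : s ∈ Icc a b := ⟨hs.1.le, hs.2.le⟩
  refine ⟨s, T, U, rfl, hsT0, hsI.1, u1, u2, hFp, fun ρ h => (hdn ρ (hsub' ρ h)).1,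
    fun ρ h => (hdn ρ (hsub' ρ h)).2.1, fun ρ h => ?_, fun ρ h => ?_, fun ρ h => ?_,
    fun ρ h => hJge ρ h, ?_, fun ρ h => ?_, fun ρ h => ?_, ?_, hmsb, hmbot, hmle,
    fun ρ h => ?_, hmpair, fun ρ h => ?_, fun ρ h => ?_⟩
  · have := (hsl ρ (hsub' ρ h)).1
    show H ρ ≤ κ * J ρ
    linarith only [this]
  · exact ((hsl ρ (hsub' ρ h)).2).trans hCA4
  · exact hJ1 ρ (hsub' ρ h)
  · exact (hJlow s hsI).trans (by linarith only [hCd])
  · intro l hl hI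
    exact ((hdn ρ (hsub' ρ h)).2.2.2.2.2.2 l hl hI).trans hCA3
  · have hρ' := hsub' ρ h
    have h1 := reveal_ineq (thRv n) (r := ρ) (δ := δ) (κ := κ) (D := 0) (K := A3 * F / κ)
      (x := M * κ * F) (φ := sN (PH (T - ρ) U)) (hδ2.le.trans hρ'.1) hδ (hdn ρ hρ').1
      (hdn ρ hρ').2.1 (hsn ρ h) (hDBS ρ ⟨hρ'.1, by
        have := hρ'.2
        rw [hTdef] at this
        linarith only [this, hδ]⟩) (hdn ρ hρ').2.2.2.2.2.2 (by
        rw [← (thCo n μ ρ _ (hdn ρ hρ').1).1.1]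
        have h2 := hJ1 ρ hρ'
        have h3 : 0 ≤ δ * (F - J ρ) := mul_nonneg hδ.le (by linarith only [h2])
        show δ / 2 * J ρ ≤ M * κ * F
        have h4 : 0 ≤ δ * F := by positivity
        linarith only [h3, h4, hx1])
    rw [← (thCo n μ ρ _ (hdn ρ hρ').1).1.1, ← (thCo n μ ρ _ (hdn ρ hρ').1).1.2] at h1
    have h5 := (hsl ρ hρ').2
    have h6 : 2 * (0 - H ρ + κ * J ρ) / δ ≤ 2 * (A4 * F) / δ :=
      div_le_div_of_nonneg_right (by linarith only [h5]) hδ.le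
    show J ρ ≤ 2 * κ * Γ ρ + C * F / κ
    have h7 : J ρ ≤ 2 * κ * Γ ρ + A3 * F / κ + 2 * (0 - H ρ + κ * J ρ) / δ := h1
    linarith only [h7, h6, hCn]
  · show 2 * κ * Γ s ≤ J s + C * F / κ
    linarith only [hbot, hCb]
  · -- lower bound of the norm of the martingale field
    have h1 := ((thCo n μ ρ _ (hdn ρ (hsub' ρ h)).1).2.1 (mf μ s T U ρ) (sN (PH (T - ρ) U))
      (hmsb ρ h) (hsn ρ h)).2.2.2.1
    rw [hmpair ρ h, ← (thCo n μ ρ _ (hdn ρ (hsub' ρ h)).1).1.1] at h1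
    have hIP0 := ((thCo n μ ρ _ (hdn ρ (hsub' ρ h)).1).2.1 (mf μ s T U ρ) (sN (PH (T - ρ) U))
      (hmsb ρ h) (hsn ρ h)).1
    set I := IP μ ρ (PH (T - ρ) U) (mf μ s T U ρ) (mf μ s T U ρ) with hI
    have h2 : J s ^ 2 ≤ I * F := h1.trans (mul_le_mul_of_nonneg_left (hJ1 ρ (hsub' ρ h)) hIP0)
    have h3 := hJge s hss
    have hτ1 : τ ≤ 1 := by
      have h0 : τ * 2000 ≤ τ * C0 := mul_le_mul_of_nonneg_left hC0 hτ.le
      linarith only [hτC, h0, hτ]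
    have h4 : ((1 - τ) * F) ^ 2 ≤ J s ^ 2 :=
      pow_le_pow_left₀ (mul_nonneg (by linarith only [hτ1]) hFp.le) h3 2
    have h5 : (1 - 2 * τ) * F * F ≤ I * F := by
      have h6 : 0 ≤ τ ^ 2 * F ^ 2 := by positivity
      linarith only [h2, h4, h6]
    exact le_of_mul_le_mul_right h5 hFp
  · intro l hl hI
    exact (hmpred ρ h l hl hI).trans hCA3
  · have hρ' := hsub' ρ h
    have hIPF : IP μ ρ (PH (T - ρ) U) (mf μ s T U ρ) (mf μ s T U ρ) ≤ F :=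
      (hmle ρ h).trans (hJ1 s hsI)
    have h1 := reveal_ineq (thRv n) (r := ρ) (δ := δ) (κ := κ) (D := 0) (K := A3 * F / κ)
      (x := M * κ * F) (φ := mf μ s T U ρ) (hδ2.le.trans hρ'.1) hδ (hdn ρ hρ').1
      (hdn ρ hρ').2.1 (hmsb ρ h) (hDBS ρ ⟨hρ'.1, by
        have := hρ'.2
        rw [hTdef] at this
        linarith only [this, hδ]⟩) (hmpred ρ h) (by
        have h3 : 0 ≤ δ * (F - IP μ ρ (PH (T - ρ) U) (mf μ s T U ρ) (mf μ s T U ρ)) :=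
          mul_nonneg hδ.le (by linarith only [hIPF])
        have h4 : 0 ≤ δ * F := by positivity
        linarith only [h3, h4, hx1])
    have h5 := (hsl ρ hρ').2
    have h6 : 2 * (0 - H ρ + κ * J ρ) / δ ≤ 2 * (A4 * F) / δ :=
      div_le_div_of_nonneg_right (by linarith only [h5]) hδ.le
    have h7 : IP μ ρ (PH (T - ρ) U) (mf μ s T U ρ) (mf μ s T U ρ)
      ≤ 2 * κ * DE μ ρ (PH (T - ρ) U) (mf μ s T U ρ) + A3 * F / κ
        + 2 * (0 - H ρ + κ * J ρ) / δ := h1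
    linarith only [h7, h6, hCn]

end Vale.Agent.P245.H440
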