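import Vale.Agent.P245.H719.Sym

/-! # P245, line U: sums, monotonicity along the up path, flats, parallelogram -/

open MeasureTheory Real Set Filter Topology
open scoped ENNReal ContDiff

namespace Vale.Agent.P245.H440

open Vale.Agent.P245.LS Vale.Agent.P245.E1 Vale.Agent.P245.H991

variable {n : ℕ}

section sums

variable (μ : Measure (Fin n → ℝ)) [IsProbabilityMeasure μ] (r : ℝ) {N : (Fin n → ℝ) → ℝ}

theorem DE_eq_sum (hN : Pos N) {φ : Fin n → (Fin n → ℝ) → ℝ} (hφ : ∀ i, SB (φ i)) :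
    DE μ r N φ = ∑ j, IP μ r N (fun i => pd (φ i) j) (fun i => pd (φ i) j) := by
  unfold DE IP
  rw [← EY_sum μ r Finset.univ fun j _ => sb_ip hN (fun i => (hφ i).pd j) fun i => (hφ i).pd j]
  congr 1
  funext y
  rw [← Finset.mul_sum, Finset.sum_comm]
  congr 1
  apply Finset.sum_congr rfl; intro j _
  apply Finset.sum_congr rfl; intro i _
  ring

theorem D2_eq_sum (hN : Pos N) {φ : Fin n → (Fin n → ℝ) → ℝ} (hφ : ∀ i, SB (φ i)) :
    D2 μ r N φ = ∑ j, DE μ r N (fun i => pd (φ i) j) := by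
  unfold D2 DE
  rw [← EY_sum μ r Finset.univ fun j _ => hN.sb.mul (SB.sum _ fun i _ => SB.sum _ fun k _ => by
    simpa only [sq] using (((hφ i).pd j).pd k).mul (((hφ i).pd j).pd k))]
  congr 1
  funext y
  rw [← Finset.mul_sum, Finset.sum_comm]

theorem BS_eq_sum {R : ℝ} (hμ : CSupp μ R) (hN : Pos N) {φ : Fin n → (Fin n → ℝ) → ℝ}
    (hφ : ∀ i, SB (φ i)) :
    BS μ r N φ = ∑ i, BI μ r N (fun j => pd (φ i) j) (fun j => pd (φ i) j) := by
  unfold BS BI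
  rw [← EY_sum μ r Finset.univ fun i _ => hN.sb.mul (SB.sum _ fun j _ => SB.sum _ fun k _ =>
    ((PV_sb hμ r j k).mul ((hφ i).pd j)).mul ((hφ i).pd k))]
  congr 1
  funext y
  rw [← Finset.mul_sum]

theorem DEi_eq_DE {φ : Fin n → (Fin n → ℝ) → ℝ} : DEi μ r N φ = DE μ r N φ := rfl

theorem IPi_eq_IP {φ ψ : Fin n → (Fin n → ℝ) → ℝ} : IPi μ r N φ ψ = IP μ r N φ ψ := rfl

end sums

/-! ### the up path -/

section up

variable {μ : Measure (Fin n → ℝ)} [IsProbabilityMeasure μ] {R : ℝ}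

theorem pd_PH_fam {φ : Fin n → (Fin n → ℝ) → ℝ} (hφ : ∀ i, SB (φ i)) (u : ℝ) (j : Fin n) :
    (fun i => pd (PH u (φ i)) j) = fun i => PH u (pd (φ i) j) := by
  funext i
  exact LS.pd_PH (hφ i) u j

/-- second moments of `PH (T - ρ) φ` are monotone along the up path -/
theorem up_ip_mono (hcs : CSupp μ R) {W : (Fin n → ℝ) → ℝ} (hW : Pos W) {s T : ℝ} (hs : 0 < s)
    (hsT : s ≤ T) {φ : Fin n → (Fin n → ℝ) → ℝ} (hφ : ∀ i, SB (φ i)) :
    MonotoneOn (fun ρ => IP μ ρ (UL μ s ρ W) (fun i => PH (T - ρ) (φ i))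
      (fun i => PH (T - ρ) (φ i))) (Icc s T) := by
  obtain ⟨-, -, -, -, hU⟩ := thU' n μ R hcs W s T hW hs hsT
  obtain ⟨c1, -, d1, -⟩ := hU φ hφ
  refine mono_of_deriv c1 d1 fun v hv => ?_
  have hp : Pos (UL μ s v W) := (((thR' n μ R hcs).2.2 s v hs hv.1.le).2 W hW).1
  exact DE_nonneg hp

theorem up_de_mono (hcs : CSupp μ R) {W : (Fin n → ℝ) → ℝ} (hW : Pos W) {s T : ℝ} (hs : 0 < s)
    (hsT : s ≤ T) {φ : Fin n → (Fin n → ℝ) → ℝ} (hφ : ∀ i, SB (φ i)) :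
    MonotoneOn (fun ρ => DE μ ρ (UL μ s ρ W) (fun i => PH (T - ρ) (φ i))) (Icc s T) := by
  intro v hv w hw hvw
  have hp : ∀ ρ ∈ Icc s T, Pos (UL μ s ρ W) := fun ρ h =>
    (((thR' n μ R hcs).2.2 s ρ hs h.1).2 W hW).1
  show DE μ v (UL μ s v W) (fun i => PH (T - v) (φ i))
    ≤ DE μ w (UL μ s w W) (fun i => PH (T - w) (φ i))
  rw [DE_eq_sum μ v (hp v hv) (fun i => PH_sb (hφ i) _),
    DE_eq_sum μ w (hp w hw) (fun i => PH_sb (hφ i) _)]
  apply Finset.sum_le_sum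
  intro j _
  rw [pd_PH_fam hφ, pd_PH_fam hφ]
  exact up_ip_mono hcs hW hs hsT (fun i => (hφ i).pd j) hv hw hvw

theorem up_d2_mono (hcs : CSupp μ R) {W : (Fin n → ℝ) → ℝ} (hW : Pos W) {s T : ℝ} (hs : 0 < s)
    (hsT : s ≤ T) {φ : Fin n → (Fin n → ℝ) → ℝ} (hφ : ∀ i, SB (φ i)) :
    MonotoneOn (fun ρ => D2 μ ρ (UL μ s ρ W) (fun i => PH (T - ρ) (φ i))) (Icc s T) := by
  intro v hv w hw hvw
  have hp : ∀ ρ ∈ Icc s T, Pos (UL μ s ρ W) := fun ρ h =>
    (((thR' n μ R hcs).2.2 s ρ hs h.1).2 W hW).1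
  show D2 μ v (UL μ s v W) (fun i => PH (T - v) (φ i))
    ≤ D2 μ w (UL μ s w W) (fun i => PH (T - w) (φ i))
  rw [D2_eq_sum μ v (hp v hv) (fun i => PH_sb (hφ i) _),
    D2_eq_sum μ w (hp w hw) (fun i => PH_sb (hφ i) _)]
  apply Finset.sum_le_sum
  intro j _
  rw [pd_PH_fam hφ, pd_PH_fam hφ]
  exact up_de_mono hcs hW hs hsT (fun i => (hφ i).pd j) hv hw hvw

/-- `V_T - V_s ≤ (T - s) e_T` -/
theorem up_v_le (hcs : CSupp μ R) {W : (Fin n → ℝ) → ℝ} (hW : Pos W) {s T : ℝ} (hs : 0 < s)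
    (hsT : s ≤ T) {φ : Fin n → (Fin n → ℝ) → ℝ} (hφ : ∀ i, SB (φ i)) :
    IP μ T (UL μ s T W) φ φ - IP μ s W (fun i => PH (T - s) (φ i)) (fun i => PH (T - s) (φ i))
      ≤ (T - s) * DE μ T (UL μ s T W) φ := by
  obtain ⟨-, -, -, -, hU⟩ := thU' n μ R hcs W s T hW hs hsT
  obtain ⟨c1, -, d1, -⟩ := hU φ hφ
  have hTT : T ∈ Icc s T := ⟨hsT, le_rfl⟩
  have hss : s ∈ Icc s T := ⟨le_rfl, hsT⟩
  set E : ℝ := DE μ T (UL μ s T W) φ with hE
  have hmono := up_de_mono hcs hW hs hsT hφ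
  have h1 := mono_of_deriv (f := fun ρ => E * ρ - IP μ ρ (UL μ s ρ W)
      (fun i => PH (T - ρ) (φ i)) (fun i => PH (T - ρ) (φ i)))
    (f' := fun ρ => E * 1 - DE μ ρ (UL μ s ρ W) (fun i => PH (T - ρ) (φ i))) (a := s) (b := T)
    ((Continuous.continuousOn (by fun_prop)).sub c1)
    (fun v hv => ((hasDerivAt_id v).const_mul E).sub (d1 v hv))
    (fun v hv => by
      have h2 := hmono ⟨hv.1.le, hv.2.le⟩ hTT hv.2.le
      simp only [sub_self, PH_zero] at h2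
      linarith only [h2])
  have h3 := h1 hss hTT hsT
  simp only [sub_self, PH_zero] at h3
  have hs' : UL μ s s W = W := (thK n μ R hcs).2.1 s W hs
  rw [hs'] at h3
  have e1 : (fun i => φ i) = φ := rfl
  linarith only [h3]

/-- `(T - s) D2_s ≤ e_T - e_s` -/
theorem up_e_ge (hcs : CSupp μ R) {W : (Fin n → ℝ) → ℝ} (hW : Pos W) {s T : ℝ} (hs : 0 < s)
    (hsT : s ≤ T) {φ : Fin n → (Fin n → ℝ) → ℝ} (hφ : ∀ i, SB (φ i)) :
    (T - s) * D2 μ s W (fun i => PH (T - s) (φ i))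
      ≤ DE μ T (UL μ s T W) φ - DE μ s W (fun i => PH (T - s) (φ i)) := by
  obtain ⟨-, -, -, -, hU⟩ := thU' n μ R hcs W s T hW hs hsT
  have hTT : T ∈ Icc s T := ⟨hsT, le_rfl⟩
  have hss : s ∈ Icc s T := ⟨le_rfl, hsT⟩
  have hp : ∀ ρ ∈ Icc s T, Pos (UL μ s ρ W) := fun ρ h =>
    (((thR' n μ R hcs).2.2 s ρ hs h.1).2 W hW).1
  set E : ℝ := D2 μ s W (fun i => PH (T - s) (φ i)) with hE
  have hmono := up_d2_mono hcs hW hs hsT hφ
  have hs' : UL μ s s W = W := (thK n μ R hcs).2.1 s W hs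
  have c1 : ContinuousOn (fun ρ => ∑ j, IP μ ρ (UL μ s ρ W)
      (fun i => PH (T - ρ) (pd (φ i) j)) (fun i => PH (T - ρ) (pd (φ i) j))) (Icc s T) :=
    continuousOn_finset_sum _ fun j _ => (hU (fun i => pd (φ i) j) fun i => (hφ i).pd j).1
  have d1 : ∀ v ∈ Ioo s T, HasDerivAt (fun ρ => ∑ j, IP μ ρ (UL μ s ρ W)
      (fun i => PH (T - ρ) (pd (φ i) j)) (fun i => PH (T - ρ) (pd (φ i) j)))
      (∑ j, DE μ v (UL μ s v W) (fun i => PH (T - v) (pd (φ i) j))) v := fun v hv =>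
    HasDerivAt.fun_sum fun j _ => (hU (fun i => pd (φ i) j) fun i => (hφ i).pd j).2.2.1 v hv
  have h1 := mono_of_deriv (f := fun ρ => (∑ j, IP μ ρ (UL μ s ρ W)
      (fun i => PH (T - ρ) (pd (φ i) j)) (fun i => PH (T - ρ) (pd (φ i) j))) - E * ρ)
    (f' := fun v => (∑ j, DE μ v (UL μ s v W) (fun i => PH (T - v) (pd (φ i) j))) - E * 1)
    (a := s) (b := T)
    (c1.sub (Continuous.continuousOn (by fun_prop)))
    (fun v hv => (d1 v hv).sub ((hasDerivAt_id v).const_mul E))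
    (fun v hv => by
      have hv' : v ∈ Icc s T := ⟨hv.1.le, hv.2.le⟩
      have h2 := hmono hss hv' hv.1.le
      simp only [hs'] at h2
      have h3 := D2_eq_sum μ v (hp v hv') (φ := fun i => PH (T - v) (φ i))
        (fun i => PH_sb (hφ i) _)
      simp only [pd_PH_fam hφ] at h3
      rw [h3] at h2
      linarith only [h2])
  have h4 := h1 hss hTT hsT
  simp only [sub_self, PH_zero, hs'] at h4
  have h5 := DE_eq_sum μ T (hp T hTT) hφ
  have h6 := DE_eq_sum μ s hW (φ := fun i => PH (T - s) (φ i)) (fun i => PH_sb (hφ i) _)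
  simp only [pd_PH_fam hφ] at h6
  rw [h5, h6]
  linarith only [h4]

end up

/-! ### quadratic forms -/

section quad

variable {ρ0 : (Fin n → ℝ) → ℝ} {R : ℝ}

theorem BI_self_le (hρ : LCd ρ0) [hprob : IsProbabilityMeasure (mu ρ0)] (hcs : CSupp (mu ρ0) R)
    {r : ℝ} (hr : 0 < r) {N : (Fin n → ℝ) → ℝ} (hN : Pos N) {φ : Fin n → (Fin n → ℝ) → ℝ}
    (hφ : ∀ i, SB (φ i)) :
    0 ≤ BI (mu ρ0) r N φ φ ∧ BI (mu ρ0) r N φ φ ≤ 1 / r * IP (mu ρ0) r N φ φ := by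
  obtain ⟨h1, -, h3, -⟩ := thP n ρ0 R hρ hprob hcs r N φ φ hr hN hφ hφ
  refine ⟨h1, ?_⟩
  rcases h1.eq_or_lt with h0 | h0
  · rw [← h0]
    exact mul_nonneg (by positivity) (IP_self_nonneg hN)
  · have h4 : BI (mu ρ0) r N φ φ * BI (mu ρ0) r N φ φ
        ≤ (1 / r * IP (mu ρ0) r N φ φ) * BI (mu ρ0) r N φ φ := by
      rw [← sq]; exact h3
    exact le_of_mul_le_mul_right h4 h0

/-- `BI(f) ≤ 2 BI(g) + 2 BI(f - g)` -/
theorem BI_add_le (hρ : LCd ρ0) [hprob : IsProbabilityMeasure (mu ρ0)] (hcs : CSupp (mu ρ0) R)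
    {r : ℝ} (hr : 0 < r) {N : (Fin n → ℝ) → ℝ} (hN : Pos N) {f g : Fin n → (Fin n → ℝ) → ℝ}
    (hf : ∀ i, SB (f i)) (hg : ∀ i, SB (g i)) :
    BI (mu ρ0) r N f f ≤ 2 * BI (mu ρ0) r N g g
      + 2 * BI (mu ρ0) r N (fun i y => 1 * f i y + -1 * g i y)
        (fun i y => 1 * f i y + -1 * g i y) := by
  set d : Fin n → (Fin n → ℝ) → ℝ := fun i y => 1 * f i y + -1 * g i y with hd
  have hds : ∀ i, SB (d i) := fun i => ((hf i).const_mul 1).add ((hg i).const_mul (-1))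
  have hP := fun φ ψ (hφ : ∀ i, SB (φ i)) (hψ : ∀ i, SB (ψ i)) =>
    thP n ρ0 R hρ hprob hcs r N φ ψ hr hN hφ hψ
  -- `f = 1 * g + 1 * d`, `e = 1 * g + -1 * d`
  have ef : (fun i y => 1 * g i y + 1 * d i y) = f := by
    funext i y; simp only [hd]; ring
  set e : Fin n → (Fin n → ℝ) → ℝ := fun i y => 1 * g i y + -1 * d i y with he
  have hes : ∀ i, SB (e i) := fun i => ((hg i).const_mul 1).add ((hds i).const_mul (-1))
  have l1 := fun θ (hθ : ∀ i, SB (θ i)) => (hP g d hg hds).2.2.2 θ 1 1 hθ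
  have l2 := fun θ (hθ : ∀ i, SB (θ i)) => (hP g d hg hds).2.2.2 θ 1 (-1) hθ
  rw [ef] at l1
  have s1 := (hP g f hg hf).2.1
  have s2 := (hP d f hds hf).2.1
  have s3 := (hP g e hg hes).2.1
  have s4 := (hP d e hds hes).2.1
  have s5 := (hP g d hg hds).2.1
  have a1 := l1 f hf
  have a2 := l1 g hg
  have a3 := l1 d hds
  have b1 := l2 e hes
  have b2 := l2 g hg
  have b3 := l2 d hds
  have hpos := (hP e e hes hes).1
  have hff : BI (mu ρ0) r N f f = BI (mu ρ0) r N g g + 2 * BI (mu ρ0) r N g d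
      + BI (mu ρ0) r N d d := by
    rw [a1, s1, s2, a2, a3, s5]; ring
  have hee : BI (mu ρ0) r N e e = BI (mu ρ0) r N g g - 2 * BI (mu ρ0) r N g d
      + BI (mu ρ0) r N d d := by
    rw [show BI (mu ρ0) r N e e = 1 * BI (mu ρ0) r N g e + -1 * BI (mu ρ0) r N d e from b1,
      s3, s4, show BI (mu ρ0) r N e g = 1 * BI (mu ρ0) r N g g + -1 * BI (mu ρ0) r N d g from b2,
      show BI (mu ρ0) r N e d = 1 * BI (mu ρ0) r N g d + -1 * BI (mu ρ0) r N d d from b3, s5]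
    ring
  linarith only [hff, hee, hpos]

theorem pd_lin {f g : (Fin n → ℝ) → ℝ} (hf : SB f) (hg : SB g) (a b : ℝ) (j : Fin n) :
    pd (fun y => a * f y + b * g y) j = fun y => a * pd f j y + b * pd g j y := by
  funext y
  have h1 := (hf.differentiable y).hasFDerivAt
  have h2 := (hg.differentiable y).hasFDerivAt
  have h3 := (h1.const_mul a).add (h2.const_mul b)
  unfold pd
  have e : (fun y => a * f y + b * g y) = (fun y => a * f y) + fun y => b * g y := rfl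
  rw [e, h3.fderiv]
  simp only [add_apply, smul_apply, smul_eq_mul]

theorem BS_le (hρ : LCd ρ0) [hprob : IsProbabilityMeasure (mu ρ0)] (hcs : CSupp (mu ρ0) R)
    {r : ℝ} (hr : 0 < r) {N : (Fin n → ℝ) → ℝ} (hN : Pos N) {f g : Fin n → (Fin n → ℝ) → ℝ}
    (hf : ∀ i, SB (f i)) (hg : ∀ i, SB (g i)) :
    BS (mu ρ0) r N f ≤ 2 * BS (mu ρ0) r N g
      + 2 / r * DE (mu ρ0) r N (fun i y => 1 * f i y + -1 * g i y) := by
  have hds : ∀ i, SB (fun y => 1 * f i y + -1 * g i y) := fun i =>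
    ((hf i).const_mul 1).add ((hg i).const_mul (-1))
  rw [BS_eq_sum (mu ρ0) r hcs hN hf, BS_eq_sum (mu ρ0) r hcs hN hg]
  have hDE : DE (mu ρ0) r N (fun i y => 1 * f i y + -1 * g i y)
      = ∑ i, IP (mu ρ0) r N (fun j y => 1 * pd (f i) j y + -1 * pd (g i) j y)
        (fun j y => 1 * pd (f i) j y + -1 * pd (g i) j y) := by
    unfold DE IP
    rw [← EY_sum (mu ρ0) r Finset.univ fun i _ => sb_ip hN
      (fun j => ((((hf i).pd j).const_mul 1).add (((hg i).pd j).const_mul (-1))))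
      (fun j => ((((hf i).pd j).const_mul 1).add (((hg i).pd j).const_mul (-1))))]
    congr 1
    funext y
    rw [← Finset.mul_sum]
    congr 1
    apply Finset.sum_congr rfl; intro i _
    apply Finset.sum_congr rfl; intro j _
    rw [pd_lin (hf i) (hg i)]
    ring
  rw [hDE, Finset.mul_sum, Finset.mul_sum, ← Finset.sum_add_distrib]
  apply Finset.sum_le_sum
  intro i _
  have h1 := BI_add_le hρ hcs hr hN (f := fun j => pd (f i) j) (g := fun j => pd (g i) j)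
    (fun j => (hf i).pd j) (fun j => (hg i).pd j)
  have h2 := (BI_self_le hρ hcs hr hN
    (φ := fun j y => 1 * pd (f i) j y + -1 * pd (g i) j y)
    (fun j => (((hf i).pd j).const_mul 1).add (((hg i).pd j).const_mul (-1)))).2
  have e : 2 / r * IP (mu ρ0) r N (fun j y => 1 * pd (f i) j y + -1 * pd (g i) j y)
      (fun j y => 1 * pd (f i) j y + -1 * pd (g i) j y)
      = 2 * (1 / r * IP (mu ρ0) r N (fun j y => 1 * pd (f i) j y + -1 * pd (g i) j y)
      (fun j y => 1 * pd (f i) j y + -1 * pd (g i) j y)) := by ring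
  rw [e]
  linarith only [h1, h2]

/-- parallelogram identity for `DE` -/
theorem DE_par (μ : Measure (Fin n → ℝ)) [IsProbabilityMeasure μ] (r : ℝ)
    {N : (Fin n → ℝ) → ℝ} (hN : Pos N) {f g : Fin n → (Fin n → ℝ) → ℝ}
    (hf : ∀ i, SB (f i)) (hg : ∀ i, SB (g i)) :
    DE μ r N (fun i y => 1 * f i y + 1 * g i y) + DE μ r N (fun i y => 1 * f i y + -1 * g i y)
      = 2 * DE μ r N f + 2 * DE μ r N g := by
  have hps : ∀ i, SB (fun y => 1 * f i y + 1 * g i y) := fun i =>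
    ((hf i).const_mul 1).add ((hg i).const_mul 1)
  have hds : ∀ i, SB (fun y => 1 * f i y + -1 * g i y) := fun i =>
    ((hf i).const_mul 1).add ((hg i).const_mul (-1))
  rw [DE_eq_sum μ r hN hps, DE_eq_sum μ r hN hds, DE_eq_sum μ r hN hf, DE_eq_sum μ r hN hg,
    Finset.mul_sum, Finset.mul_sum, ← Finset.sum_add_distrib, ← Finset.sum_add_distrib]
  apply Finset.sum_congr rfl; intro j _
  have e1 : (fun i => pd (fun y => 1 * f i y + 1 * g i y) j)
      = fun i y => 1 * pd (f i) j y + 1 * pd (g i) j y := by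
    funext i; exact pd_lin (hf i) (hg i) 1 1 j
  have e2 : (fun i => pd (fun y => 1 * f i y + -1 * g i y) j)
      = fun i y => 1 * pd (f i) j y + -1 * pd (g i) j y := by
    funext i; exact pd_lin (hf i) (hg i) 1 (-1) j
  rw [e1, e2]
  have q1 := IP_quad (μ := μ) (r := r) hN (φ := fun i => pd (f i) j) (ψ := fun i => pd (g i) j)
    (fun i => (hf i).pd j) (fun i => (hg i).pd j) 1 1
  have q2 := IP_quad (μ := μ) (r := r) hN (φ := fun i => pd (f i) j) (ψ := fun i => pd (g i) j)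
    (fun i => (hf i).pd j) (fun i => (hg i).pd j) 1 (-1)
  linarith only [q1, q2]

end quad

/-! ### the down branch -/

section down

variable {μ : Measure (Fin n → ℝ)} [IsProbabilityMeasure μ] {R : ℝ}

/-- `V_φ - V_s ≤ (s - s') e_φ` along the down branch -/
theorem down_v_le (hcs : CSupp μ R) {W : (Fin n → ℝ) → ℝ} (hW : Pos W) {s' s : ℝ} (hs' : 0 < s')
    (hss : s' ≤ s) {φ : Fin n → (Fin n → ℝ) → ℝ} (hφ : ∀ i, SB (φ i))
    (hBS : ∀ ρ ∈ Ioo s' s, 0 ≤ BS μ ρ (PH (s - ρ) W) (fun i => UL μ s' ρ (φ i))) :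
    IP μ s' (PH (s - s') W) φ φ - IP μ s W (fun i => UL μ s' s (φ i)) (fun i => UL μ s' s (φ i))
      ≤ (s - s') * DE μ s' (PH (s - s') W) φ ∧
    DE μ s W (fun i => UL μ s' s (φ i)) ≤ DE μ s' (PH (s - s') W) φ := by
  obtain ⟨c0, d0⟩ := tb0 (ι := Fin n) hcs hW (T := s) hs' hφ
  obtain ⟨c1, d1⟩ := tb1 (ι := Fin n) hcs hW (T := s) hs' hφ
  have hp : ∀ ρ : ℝ, Pos (PH (s - ρ) W) := fun ρ => PH_pos hW _
  have hanti := mono_of_deriv (f := fun ρ => -DEi μ ρ (PH (s - ρ) W) (fun i => UL μ s' ρ (φ i)))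
    (f' := fun ρ => D2 μ ρ (PH (s - ρ) W) (fun i => UL μ s' ρ (φ i))
      + 2 * BS μ ρ (PH (s - ρ) W) (fun i => UL μ s' ρ (φ i))) (a := s') (b := s)
    c1.neg (fun v hv => ((d1 v hv).neg).congr_deriv (by ring))
    (fun v hv => by
      have h1 := hBS v hv
      have h2 : 0 ≤ D2 μ v (PH (s - v) W) (fun i => UL μ s' v (φ i)) :=
        EY_nonneg μ v fun y => mul_nonneg ((hp v).pos y).le
          (Finset.sum_nonneg fun _ _ => Finset.sum_nonneg fun _ _ =>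
            Finset.sum_nonneg fun _ _ => sq_nonneg _)
      linarith only [h1, h2])
  have hs1 : s' ∈ Icc s' s := ⟨le_rfl, hss⟩
  have hs2 : s ∈ Icc s' s := ⟨hss, le_rfl⟩
  have hK : ∀ h : (Fin n → ℝ) → ℝ, UL μ s' s' h = h := fun h => (thK n μ R hcs).2.1 s' h hs'
  set E : ℝ := DE μ s' (PH (s - s') W) φ with hE
  have hE' : ∀ ρ ∈ Icc s' s, DEi μ ρ (PH (s - ρ) W) (fun i => UL μ s' ρ (φ i)) ≤ E := by
    intro ρ h
    have h1 := hanti hs1 h h.1
    simp only [hK] at h1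
    have h2 : DEi μ s' (PH (s - s') W) (fun i => φ i) = E := rfl
    rw [h2] at h1
    linarith only [h1]
  constructor
  · have h1 := mono_of_deriv (f := fun ρ => E * ρ + IPi μ ρ (PH (s - ρ) W)
        (fun i => UL μ s' ρ (φ i)) (fun i => UL μ s' ρ (φ i)))
      (f' := fun ρ => E * 1 + -(DEi μ ρ (PH (s - ρ) W) (fun i => UL μ s' ρ (φ i))))
      (a := s') (b := s) ((Continuous.continuousOn (by fun_prop)).add c0)
      (fun v hv => ((hasDerivAt_id v).const_mul E).add (d0 v hv))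
      (fun v hv => by
        have := hE' v ⟨hv.1.le, hv.2.le⟩
        linarith only [this])
    have h2 := h1 hs1 hs2 hss
    simp only [hK, sub_self, PH_zero] at h2
    have e1 : IPi μ s' (PH (s - s') W) (fun i => φ i) (fun i => φ i)
      = IP μ s' (PH (s - s') W) φ φ := rfl
    have e2 : IPi μ s W (fun i => UL μ s' s (φ i)) (fun i => UL μ s' s (φ i))
      = IP μ s W (fun i => UL μ s' s (φ i)) (fun i => UL μ s' s (φ i)) := rfl
    rw [e1, e2] at h2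
    linarith only [h2]
  · have h1 := hE' s hs2
    simp only [sub_self, PH_zero] at h1
    exact h1

end down

end Vale.Agent.P245.H440
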