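import Vale.Agent.P245.H440.PathW
import Vale.Agent.P245.H991.TB1

/-! # P245, row PATHU: up branch + down branch of a near-maximiser at the level `5δ/2` -/

open MeasureTheory Real Set Filter Topology
open scoped ENNReal ContDiff

namespace Vale.Agent.P245.H440

open Vale.Agent.P245.LS Vale.Agent.P245.E1

variable {n : ℕ}

/-- the down branch from a given near-maximiser at the level `5δ/2` -/
theorem pathD (C0 M τ a0 : ℝ) (hC0 : 2000 ≤ C0) (hM : 1 ≤ M) (hτ : 0 < τ) (hτC : τ * C0 ≤ 1 / 2)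
    (ha0 : 0 < a0) :
    ∃ C K : ℝ, 0 < C ∧ 0 < K ∧ ∀ (n : ℕ) (ρ0 : (Fin n → ℝ) → ℝ) (R κ : ℝ), LCd ρ0 →
      IsProbabilityMeasure (mu ρ0) → CSupp (mu ρ0) R → ExpM (mu ρ0) 1 → K ≤ κ →
      DBS (mu ρ0) (2 * (κ / C0)) (κ / C0) κ 0 →
      ∀ U : (Fin n → ℝ) → ℝ, Pos U → EY (mu ρ0) (5 / 2 * (κ / C0)) U = 1 →
        0 < LS.FI (mu ρ0) (5 / 2 * (κ / C0)) U →
        κ * LS.FI (mu ρ0) (5 / 2 * (κ / C0)) U - LS.HE (mu ρ0) (5 / 2 * (κ / C0)) U
          ≤ a0 * LS.FI (mu ρ0) (5 / 2 * (κ / C0)) U →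
        ∃ s : ℝ, PathOut (mu ρ0) κ (κ / C0) τ M C s (5 / 2 * (κ / C0)) U := by
  set A3 : ℝ := 800 * C0 ^ 2 * (1 + M) + 4000 * a0 with hA3
  set A4 : ℝ := 10 * a0 + 8 * A3 / C0 with hA4
  set C : ℝ := A3 + A4 + 4 * A4 / τ + 2 * A4 * C0 with hC
  have hC00 : 0 < C0 := by linarith only [hC0]
  have hA3p : 0 < A3 := by positivity
  have hA4p : 0 < A4 := by positivity
  have hA4t : 0 < A4 / τ := by positivity
  have hA4C : 0 < A4 * C0 := by positivity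
  have hCp : 0 < C := by positivity
  refine ⟨C, 10 ^ 4 + 10 ^ 4 * a0 + A3 + 2 * a0 / τ, hCp, by positivity, ?_⟩
  intro n ρ0 R κ hρ hprob hcs hexp hK hDBS U u1 u2 hFp hα2
  have := hprob
  set μ := mu ρ0 with hμ
  have ha0t : 0 < a0 / τ := by positivity
  have e0 : (2 * a0 / τ : ℝ) = 2 * (a0 / τ) := by ring
  have hκ4 : 10 ^ 4 ≤ κ := by linarith only [hK, ha0, hA3p, ha0t, e0]
  have hκa0 : 10 ^ 4 * a0 ≤ κ := by linarith only [hK, ha0, hA3p, ha0t, e0]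
  have hκA3 : A3 ≤ κ := by linarith only [hK, ha0, hA3p, ha0t, e0]
  have hκa0t : 2 * a0 / τ ≤ κ := by linarith only [hK, ha0, hA3p, ha0t, e0]
  have hκ : 0 < κ := by linarith only [hκ4]
  set δ : ℝ := κ / C0 with hδdef
  have hδ : 0 < δ := by positivity
  have hδκ : 2000 * δ ≤ κ := by
    rw [hδdef, mul_div_assoc', div_le_iff₀ hC00]
    have := mul_le_mul_of_nonneg_left hC0 hκ.le
    linarith only [this]
  have hδC : δ * C0 = κ := by rw [hδdef]; field_simp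
  have e1 : ∀ F : ℝ, 800 / δ ^ 2 * (κ * F + M * κ * F) = 800 * C0 ^ 2 * (1 + M) * F / κ := by
    intro F
    rw [hδdef]
    field_simp
  set T : ℝ := 5 / 2 * δ with hTdef
  have hT : T ∈ Icc (2 * δ) (3 * δ) := ⟨by rw [hTdef]; linarith only [hδ], by
    rw [hTdef]; linarith only [hδ]⟩
  set F := LS.FI μ T U with hF
  -- step 3: boot at `T`
  have hx1 : 2 * δ * F ≤ M * κ * F := by
    apply mul_le_mul_of_nonneg_right _ hFp.le
    have := mul_le_mul_of_nonneg_right hM hκ.le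
    linarith only [this, hδκ, hδ]
  have hα4 : 10 ^ 4 * (a0 * F) ≤ κ * F := by
    have := mul_le_mul_of_nonneg_right hκa0 hFp.le
    linarith only [this]
  have b2 := pred_boot hρ hcs hexp (α := a0 * F) (x := M * κ * F) hδ hδκ hDBS hT u1 u2
    (by positivity) hα4 hα2 hx1
  rw [← hF] at b2
  have e3 : 800 / δ ^ 2 * (κ * F + M * κ * F) + 4000 * (a0 * F) / κ = A3 * F / κ := by
    rw [e1, hA3]; ring
  rw [e3] at b2
  have hX2 : A3 * F / κ ≤ F := by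
    rw [div_le_iff₀ hκ, mul_comm F κ]
    exact mul_le_mul_of_nonneg_right hκA3 hFp.le
  -- step 4: the down path from `T`
  obtain ⟨-, hdn, -⟩ := thPathA' n ρ0 R hρ hprob hcs U (PH (T - 2 * δ) U) δ κ T (a0 * F)
    (M * κ * F) (A3 * F / κ) 0 hδ hδκ hDBS hT u1 u2 (by positivity) hα4 (by
      rw [← hF]; linarith only [hα2]) hx1 (by positivity) hX2 b2 rfl
  have hα5 : 10 * (a0 * F) + 8 * δ * (A3 * F / κ) = A4 * F := by
    rw [hA4, hδdef]; field_simp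
  rw [hα5] at hdn
  have hτκ : τ * κ ≤ δ / 2 := by
    rw [← hδC]
    have := mul_le_mul_of_nonneg_left hτC hδ.le
    linarith only [this]
  have hτκ0 : 0 < τ * κ := by positivity
  have hlow : 2 * δ ≤ T - τ * κ := by rw [hTdef]; linarith only [hτκ]
  have hδ2 : 0 < 2 * δ := by positivity
  obtain ⟨cH, cJ, dH, dJ, hφ⟩ := thDn' n μ R hcs U (2 * δ) T u1 hδ2 hT.1
  set H : ℝ → ℝ := fun ρ => LS.HE μ ρ (PH (T - ρ) U) with hHdef
  set J : ℝ → ℝ := fun ρ => LS.FI μ ρ (PH (T - ρ) U) with hJdef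
  set Γ : ℝ → ℝ := fun ρ => LS.GA μ ρ (PH (T - ρ) U) with hΓdef
  have hPHT : PH (T - T) U = U := by rw [sub_self, PH_zero]
  have hHT : H T = LS.HE μ T U := by show LS.HE μ T (PH (T - T) U) = _; rw [hPHT]
  have hJT : J T = F := by show LS.FI μ T (PH (T - T) U) = _; rw [hPHT]
  have hJ1 : ∀ ρ ∈ Icc (2 * δ) T, J ρ ≤ F := fun ρ h => (hdn ρ h).2.2.2.2.1
  have hsl : ∀ ρ ∈ Icc (2 * δ) T, 0 ≤ κ * J ρ - H ρ ∧ κ * J ρ - H ρ ≤ A4 * F := by
    intro ρ h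
    obtain ⟨-, -, h3, h4, -⟩ := hdn ρ h
    constructor
    · show 0 ≤ κ * LS.FI μ ρ (PH (T - ρ) U) - LS.HE μ ρ (PH (T - ρ) U)
      linarith only [h3]
    · show κ * LS.FI μ ρ (PH (T - ρ) U) - LS.HE μ ρ (PH (T - ρ) U) ≤ A4 * F
      linarith only [h4]
  have hTT : T ∈ Icc (2 * δ) T := ⟨hT.1, le_rfl⟩
  -- entropy drop
  have hHd : ∀ ρ ∈ Icc (2 * δ) T, H T - H ρ ≤ F / 2 * (T - ρ) := by
    have h1 := mono_of_deriv (f := fun v => F / 2 * v - H v)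
      (f' := fun v => F / 2 * 1 - 1 / 2 * J v) (a := 2 * δ) (b := T)
      ((Continuous.continuousOn (by fun_prop)).sub cH)
      (fun v hv => ((hasDerivAt_id v).const_mul (F / 2)).sub (dH v hv))
      (fun v hv => by
        have := hJ1 v ⟨hv.1.le, hv.2.le⟩
        linarith only [this])
    intro ρ h
    have h2 := h1 h hTT h.2
    simp only at h2
    linarith only [h2]
  have hJlow : ∀ ρ ∈ Icc (2 * δ) T, F - J ρ ≤ (T - ρ) / (2 * κ) * F + a0 * F / κ := by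
    intro ρ h
    have h1 := (hsl ρ h).1
    have h2 := hHd ρ h
    have h3 : κ * F - H T ≤ a0 * F := by rw [hHT]; exact hα2
    have h4 : κ * (F - J ρ) ≤ F / 2 * (T - ρ) + a0 * F := by linarith only [h1, h2, h3]
    have h5 : F - J ρ ≤ (F / 2 * (T - ρ) + a0 * F) / κ := by
      rw [le_div_iff₀ hκ]; linarith only [h4]
    refine h5.trans (le_of_eq ?_)
    field_simp
  -- the bottom level
  set a : ℝ := T - τ * κ with ha
  set b : ℝ := T - τ * κ / 2 with hb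
  have hab : a < b := by rw [ha, hb]; linarith only [hτκ0]
  have hsub : ∀ v ∈ Icc a b, v ∈ Icc (2 * δ) T := fun v hv =>
    ⟨hlow.trans hv.1, hv.2.trans (by rw [hb]; linarith only [hτκ0])⟩
  obtain ⟨s, hs, hsd⟩ := exists_hasDerivAt_eq_slope (fun v => κ * J v - H v)
    (fun v => κ * Γ v - 1 / 2 * J v) hab
    (((continuousOn_const.mul cJ).sub cH).mono fun v hv => hsub v hv)
    (fun v hv => ((dJ v ⟨by
        have := hv.1
        linarith only [this, hlow], by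
        have := hv.2
        have h2 : b < T := by rw [hb]; linarith only [hτκ0]
        linarith only [this, h2]⟩).const_mul κ).sub (dH v ⟨by
        have := hv.1
        linarith only [this, hlow], by
        have := hv.2
        have h2 : b < T := by rw [hb]; linarith only [hτκ0]
        linarith only [this, h2]⟩))
  have hsI : s ∈ Icc (2 * δ) T := hsub s ⟨hs.1.le, hs.2.le⟩
  have hsT : s ≤ T := hsI.2
  have hs0 : 0 < s := hδ2.trans_le hsI.1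
  have hbot : 2 * κ * Γ s ≤ J s + 4 * A4 / τ * F / κ := by
    have h1 := (hsl b (hsub b ⟨hab.le, le_rfl⟩)).2
    have h2 := (hsl a (hsub a ⟨le_rfl, hab.le⟩)).1
    have hba : b - a = τ * κ / 2 := by rw [ha, hb]; ring
    have h3 : κ * Γ s - 1 / 2 * J s ≤ A4 * F / (τ * κ / 2) := by
      rw [hsd, hba]
      exact div_le_div_of_nonneg_right (by linarith only [h1, h2]) (by positivity)
    have e4 : A4 * F / (τ * κ / 2) = 2 * A4 / τ * F / κ := by field_simp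
    rw [e4] at h3
    have e5 : 4 * A4 / τ * F / κ = 2 * (2 * A4 / τ * F / κ) := by ring
    rw [e5]
    linarith only [h3]
  have hsub' : ∀ ρ ∈ Icc s T, ρ ∈ Icc (2 * δ) T := fun ρ h => ⟨hsI.1.trans h.1, h.2⟩
  have hTs : ∀ ρ ∈ Icc s T, T - ρ ≤ τ * κ := fun ρ h => by
    have h1 := h.1
    have h2 := hs.1
    linarith only [h1, h2, ha]
  have hFκ : 0 < F / κ := by positivity
  have hCA3 : A3 * F / κ ≤ C * F / κ := by
    apply div_le_div_of_nonneg_right _ hκ.le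
    apply mul_le_mul_of_nonneg_right _ hFp.le
    have e : (4 * A4 / τ : ℝ) = 4 * (A4 / τ) := by ring
    have e' : (2 * A4 * C0 : ℝ) = 2 * (A4 * C0) := by ring
    linarith only [hC, hA4p, hA4t, hA4C, e, e']
  have hCA4 : A4 * F ≤ C * F := by
    apply mul_le_mul_of_nonneg_right _ hFp.le
    have e : (4 * A4 / τ : ℝ) = 4 * (A4 / τ) := by ring
    have e' : (2 * A4 * C0 : ℝ) = 2 * (A4 * C0) := by ring
    linarith only [hC, hA3p, hA4t, hA4C, e, e']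
  have hCb : 4 * A4 / τ * F / κ ≤ C * F / κ := by
    apply div_le_div_of_nonneg_right _ hκ.le
    apply mul_le_mul_of_nonneg_right _ hFp.le
    have e' : (2 * A4 * C0 : ℝ) = 2 * (A4 * C0) := by ring
    linarith only [hC, hA4p, hA3p, hA4C, e']
  have hCn : A3 * F / κ + 2 * (A4 * F) / δ ≤ C * F / κ := by
    have e6 : A3 * F / κ + 2 * (A4 * F) / δ = (A3 + 2 * A4 * C0) * F / κ := by
      rw [hδdef]; field_simp
    rw [e6]
    apply div_le_div_of_nonneg_right _ hκ.le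
    apply mul_le_mul_of_nonneg_right _ hFp.le
    have e : (4 * A4 / τ : ℝ) = 4 * (A4 / τ) := by ring
    linarith only [hC, hA4p, hA4t, e]
  have hCd : a0 * F / κ ≤ C * F / κ := by
    apply div_le_div_of_nonneg_right _ hκ.le
    apply mul_le_mul_of_nonneg_right _ hFp.le
    have e : (4 * A4 / τ : ℝ) = 4 * (A4 / τ) := by ring
    have e' : (2 * A4 * C0 : ℝ) = 2 * (A4 * C0) := by ring
    have e7 : A4 = 10 * a0 + 8 * (A3 / C0) := by rw [hA4]; ring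
    have e8 : 0 < A3 / C0 := by positivity
    linarith only [hC, hA3p, ha0, hA4t, hA4C, e, e', e7, e8]
  -- the martingale field
  have hsn : ∀ ρ ∈ Icc s T, ∀ i, SB (sN (PH (T - ρ) U) i) := fun ρ h i => by
    have h1 := (hdn ρ (hsub' ρ h)).1
    exact h1.div (h1.sb.pd i)
  have hss : s ∈ Icc s T := ⟨le_rfl, hsT⟩
  have hmsb : ∀ ρ ∈ Icc s T, ∀ i, SB (mf μ s T U ρ i) := fun ρ h i =>
    ((thR' n μ R hcs).2.2 s ρ hs0 h.1).1 _ (hsn s hss i)
  have hmbot : ∀ i, mf μ s T U s i = sN (PH (T - s) U) i := fun i =>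
    (thK n μ R hcs).2.1 s _ hs0
  obtain ⟨_, _, _, _, hφs⟩ := thDn' n μ R hcs U s T u1 hs0 hsT
  obtain ⟨c2, d2, hpair⟩ := hφs (fun i => sN (PH (T - s) U) i) (hsn s hss)
  have hDE0 : ∀ ρ ∈ Icc s T, 0 ≤ DE μ ρ (PH (T - ρ) U) (mf μ s T U ρ) := fun ρ h =>
    ((thCo n μ ρ _ (hdn ρ (hsub' ρ h)).1).2.1 (mf μ s T U ρ) (mf μ s T U ρ)
      (hmsb ρ h) (hmsb ρ h)).2.1
  have hIPs : IP μ s (PH (T - s) U) (mf μ s T U s) (mf μ s T U s) = J s := by
    have e : mf μ s T U s = sN (PH (T - s) U) := by funext i; exact hmbot i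
    rw [e]
    exact ((thCo n μ s _ (hdn s hsI).1).1.1).symm
  have hmle : ∀ ρ ∈ Icc s T, IP μ ρ (PH (T - ρ) U) (mf μ s T U ρ) (mf μ s T U ρ) ≤ J s := by
    have h1 := mono_of_deriv
      (f := fun ρ => -IP μ ρ (PH (T - ρ) U) (mf μ s T U ρ) (mf μ s T U ρ))
      (f' := fun ρ => DE μ ρ (PH (T - ρ) U) (mf μ s T U ρ)) (a := s) (b := T)
      c2.neg (fun v hv => ((d2 v hv).neg).congr_deriv (neg_neg _))
      (fun v hv => hDE0 v ⟨hv.1.le, hv.2.le⟩)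
    intro ρ h
    have h2 := h1 hss h h.1
    simp only at h2
    rw [hIPs] at h2
    linarith only [h2]
  have hmpair : ∀ ρ ∈ Icc s T, IP μ ρ (PH (T - ρ) U) (mf μ s T U ρ) (sN (PH (T - ρ) U)) = J s := by
    intro ρ h
    have h1 := hpair ρ h
    have e : (fun i => sN (PH (T - s) U) i) = sN (PH (T - s) U) := rfl
    rw [e] at h1
    have h2 : IP μ s (PH (T - s) U) (sN (PH (T - s) U)) (sN (PH (T - s) U)) = J s :=
      ((thCo n μ s _ (hdn s hsI).1).1.1).symm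
    rw [h2] at h1
    exact h1
  have hJge : ∀ ρ ∈ Icc s T, (1 - τ) * F ≤ J ρ := by
    intro ρ h
    have h1 := hJlow ρ (hsub' ρ h)
    have h2 : (T - ρ) / (2 * κ) * F ≤ τ / 2 * F := by
      apply mul_le_mul_of_nonneg_right _ hFp.le
      rw [div_le_iff₀ (by positivity)]
      have := hTs ρ h
      linarith only [this]
    have h3 : a0 * F / κ ≤ τ / 2 * F := by
      rw [div_le_iff₀ hκ]
      have h4 : 2 * a0 ≤ κ * τ := by rwa [div_le_iff₀ hτ] at hκa0t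
      have := mul_le_mul_of_nonneg_right h4 hFp.le
      linarith only [this]
    linarith only [h1, h2, h3]
  have hmpred : ∀ ρ ∈ Icc s T, Pred μ ρ (PH (T - ρ) U) (mf μ s T U ρ) (M * κ * F)
      (A3 * F / κ) := by
    intro ρ h
    have h1 := (thT' n μ R hcs (PH (T - ρ) U) s ρ (M * κ * F) (A3 * F / κ)
      (hdn ρ (hsub' ρ h)).1 hs0 h.1).2.2.2 (hdn ρ (hsub' ρ h)).2.1
      (fun i => sN (PH (T - s) U) i) (hsn s hss)
    have e : PH (ρ - s) (PH (T - ρ) U) = PH (T - s) U := by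
      rw [PH_PH u1.sb (by linarith only [h.1]) (by linarith only [h.2])]
      congr 1
      ring
    rw [e] at h1
    exact h1 (hdn s hsI).2.2.2.2.2.2
  have hsT0 : s ∈ Icc a b := ⟨hs.1.le, hs.2.le⟩
  refine ⟨s, rfl, hsT0, hsI.1, u1, u2, hFp, fun ρ h => (hdn ρ (hsub' ρ h)).1,
    fun ρ h => (hdn ρ (hsub' ρ h)).2.1, fun ρ h => ?_, fun ρ h => ?_, fun ρ h => ?_,
    fun ρ h => hJge ρ h, ?_, fun ρ h => ?_, fun ρ h => ?_, ?_, hmsb, hmbot, hmle,
    fun ρ h => ?_, hmpair, fun ρ h => ?_, fun ρ h => ?_⟩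
  · have := (hsl ρ (hsub' ρ h)).1
    show H ρ ≤ κ * J ρ
    linarith only [this]
  · exact ((hsl ρ (hsub' ρ h)).2).trans hCA4
  · exact hJ1 ρ (hsub' ρ h)
  · exact (hJlow s hsI).trans (by linarith only [hCd])
  · intro l hl hI
    exact ((hdn ρ (hsub' ρ h)).2.2.2.2.2.2 l hl hI).trans hCA3
  · have hρ' := hsub' ρ h
    have h1 := reveal_ineq (thRv n) (r := ρ) (δ := δ) (κ := κ) (D := 0) (K := A3 * F / κ)
      (x := M * κ * F) (φ := sN (PH (T - ρ) U)) (hδ2.le.trans hρ'.1) hδ (hdn ρ hρ').1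
      (hdn ρ hρ').2.1 (hsn ρ h) (hDBS ρ ⟨hρ'.1, by
        have := hρ'.2
        rw [hTdef] at this
        linarith only [this, hδ]⟩) (hdn ρ hρ').2.2.2.2.2.2 (by
        rw [← (thCo n μ ρ _ (hdn ρ hρ').1).1.1]
        have h2 := hJ1 ρ hρ'
        have h3 : 0 ≤ δ * (F - J ρ) := mul_nonneg hδ.le (by linarith only [h2])
        show δ / 2 * J ρ ≤ M * κ * F
        have h4 : 0 ≤ δ * F := by positivity
        linarith only [h3, h4, hx1])
    rw [← (thCo n μ ρ _ (hdn ρ hρ').1).1.1, ← (thCo n μ ρ _ (hdn ρ hρ').1).1.2] at h1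
    have h5 := (hsl ρ hρ').2
    have h6 : 2 * (0 - H ρ + κ * J ρ) / δ ≤ 2 * (A4 * F) / δ :=
      div_le_div_of_nonneg_right (by linarith only [h5]) hδ.le
    show J ρ ≤ 2 * κ * Γ ρ + C * F / κ
    have h7 : J ρ ≤ 2 * κ * Γ ρ + A3 * F / κ + 2 * (0 - H ρ + κ * J ρ) / δ := h1
    linarith only [h7, h6, hCn]
  · show 2 * κ * Γ s ≤ J s + C * F / κ
    linarith only [hbot, hCb]
  · -- lower bound of the norm of the martingale field
    have h1 := ((thCo n μ ρ _ (hdn ρ (hsub' ρ h)).1).2.1 (mf μ s T U ρ) (sN (PH (T - ρ) U))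
      (hmsb ρ h) (hsn ρ h)).2.2.2.1
    rw [hmpair ρ h, ← (thCo n μ ρ _ (hdn ρ (hsub' ρ h)).1).1.1] at h1
    have hIP0 := ((thCo n μ ρ _ (hdn ρ (hsub' ρ h)).1).2.1 (mf μ s T U ρ) (sN (PH (T - ρ) U))
      (hmsb ρ h) (hsn ρ h)).1
    set I := IP μ ρ (PH (T - ρ) U) (mf μ s T U ρ) (mf μ s T U ρ) with hI
    have h2 : J s ^ 2 ≤ I * F := h1.trans (mul_le_mul_of_nonneg_left (hJ1 ρ (hsub' ρ h)) hIP0)
    have h3 := hJge s hss
    have hτ1 : τ ≤ 1 := by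
      have h0 : τ * 2000 ≤ τ * C0 := mul_le_mul_of_nonneg_left hC0 hτ.le
      linarith only [hτC, h0, hτ]
    have h4 : ((1 - τ) * F) ^ 2 ≤ J s ^ 2 :=
      pow_le_pow_left₀ (mul_nonneg (by linarith only [hτ1]) hFp.le) h3 2
    have h5 : (1 - 2 * τ) * F * F ≤ I * F := by
      have h6 : 0 ≤ τ ^ 2 * F ^ 2 := by positivity
      linarith only [h2, h4, h6]
    exact le_of_mul_le_mul_right h5 hFp
  · intro l hl hI
    exact (hmpred ρ h l hl hI).trans hCA3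
  · have hρ' := hsub' ρ h
    have hIPF : IP μ ρ (PH (T - ρ) U) (mf μ s T U ρ) (mf μ s T U ρ) ≤ F :=
      (hmle ρ h).trans (hJ1 s hsI)
    have h1 := reveal_ineq (thRv n) (r := ρ) (δ := δ) (κ := κ) (D := 0) (K := A3 * F / κ)
      (x := M * κ * F) (φ := mf μ s T U ρ) (hδ2.le.trans hρ'.1) hδ (hdn ρ hρ').1
      (hdn ρ hρ').2.1 (hmsb ρ h) (hDBS ρ ⟨hρ'.1, by
        have := hρ'.2
        rw [hTdef] at this
        linarith only [this, hδ]⟩) (hmpred ρ h) (by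
        have h3 : 0 ≤ δ * (F - IP μ ρ (PH (T - ρ) U) (mf μ s T U ρ) (mf μ s T U ρ)) :=
          mul_nonneg hδ.le (by linarith only [hIPF])
        have h4 : 0 ≤ δ * F := by positivity
        linarith only [h3, h4, hx1])
    have h5 := (hsl ρ hρ').2
    have h6 : 2 * (0 - H ρ + κ * J ρ) / δ ≤ 2 * (A4 * F) / δ :=
      div_le_div_of_nonneg_right (by linarith only [h5]) hδ.le
    have h7 : IP μ ρ (PH (T - ρ) U) (mf μ s T U ρ) (mf μ s T U ρ)
      ≤ 2 * κ * DE μ ρ (PH (T - ρ) U) (mf μ s T U ρ) + A3 * F / κ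
        + 2 * (0 - H ρ + κ * J ρ) / δ := h1
    linarith only [h7, h6, hCn]

/-- the field `D PH (T - s) log N_T = PH (T - s) (score at level T)` -/
noncomputable def gf (s T : ℝ) (NT : (Fin n → ℝ) → ℝ) (i : Fin n) : (Fin n → ℝ) → ℝ :=
  PH (T - s) (sN NT i)

/-- output of the row PATHU. `N_ρ := UL μ (2δ) ρ V`, `F := FI μ s N_s`, `s = 5δ/2`, `s' < s < T`. -/
structure UpOut (μ : Measure (Fin n → ℝ)) (κ δ τ M C s' s T : ℝ) (V : (Fin n → ℝ) → ℝ) :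
    Prop where
  down : PathOut μ κ δ τ M C s' s (UL μ (2 * δ) s V)
  T_mem : T ∈ Icc (s + τ * κ / 2) (s + τ * κ)
  T_le : T ≤ 3 * δ
  posV : Pos V
  posU : ∀ ρ ∈ Icc (2 * δ) (3 * δ), Pos (UL μ (2 * δ) ρ V)
  oneU : ∀ ρ ∈ Icc (2 * δ) (3 * δ), EY μ ρ (UL μ (2 * δ) ρ V) = 1
  he_le : ∀ ρ ∈ Icc (2 * δ) (3 * δ),
    LS.HE μ ρ (UL μ (2 * δ) ρ V) ≤ κ * LS.FI μ ρ (UL μ (2 * δ) ρ V)
  slack : ∀ ρ ∈ Icc (2 * δ) (3 * δ), κ * LS.FI μ ρ (UL μ (2 * δ) ρ V)
    - LS.HE μ ρ (UL μ (2 * δ) ρ V) ≤ C * LS.FI μ s (UL μ (2 * δ) s V)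
  fi_lo : ∀ ρ ∈ Icc (2 * δ) (3 * δ),
    98 / 100 * LS.FI μ s (UL μ (2 * δ) s V) ≤ LS.FI μ ρ (UL μ (2 * δ) ρ V)
  fi_hi : ∀ ρ ∈ Icc (2 * δ) (3 * δ),
    LS.FI μ ρ (UL μ (2 * δ) ρ V) ≤ 103 / 100 * LS.FI μ s (UL μ (2 * δ) s V)
  fi_top : LS.FI μ T (UL μ (2 * δ) T V) ≤ LS.FI μ s (UL μ (2 * δ) s V)
  fi_drop : LS.FI μ s (UL μ (2 * δ) s V) - LS.FI μ T (UL μ (2 * δ) T V)
    ≤ (T - s) / (2 * κ) * LS.FI μ s (UL μ (2 * δ) s V) + C * LS.FI μ s (UL μ (2 * δ) s V) / κ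
  semi : ∀ r1 r2 : ℝ, 2 * δ ≤ r1 → r1 ≤ r2 →
    UL μ r1 r2 (UL μ (2 * δ) r1 V) = UL μ (2 * δ) r2 V
  pred : ∀ ρ ∈ Icc (2 * δ) (3 * δ), Pred μ ρ (UL μ (2 * δ) ρ V) (sN (UL μ (2 * δ) ρ V))
    (M * κ * LS.FI μ s (UL μ (2 * δ) s V)) (C * LS.FI μ s (UL μ (2 * δ) s V) / κ)
  top : 2 * κ * (LS.GA μ T (UL μ (2 * δ) T V)
      + 2 * BI μ T (UL μ (2 * δ) T V) (sN (UL μ (2 * δ) T V)) (sN (UL μ (2 * δ) T V)))
    ≤ LS.FI μ T (UL μ (2 * δ) T V) + C * LS.FI μ s (UL μ (2 * δ) s V) / κ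
  gf_sb : ∀ i, SB (gf s T (UL μ (2 * δ) T V) i)
  gf_pos_grad : ∀ i, gf s T (UL μ (2 * δ) T V) i
    = pd (PH (T - s) (fun y => log (UL μ (2 * δ) T V y))) i
  gf_le : IP μ s (UL μ (2 * δ) s V) (gf s T (UL μ (2 * δ) T V)) (gf s T (UL μ (2 * δ) T V))
    ≤ LS.FI μ T (UL μ (2 * δ) T V)
  gf_pred : Pred μ s (UL μ (2 * δ) s V) (gf s T (UL μ (2 * δ) T V))
    (M * κ * LS.FI μ s (UL μ (2 * δ) s V)) (C * LS.FI μ s (UL μ (2 * δ) s V) / κ)
  gf_near : IP μ s (UL μ (2 * δ) s V) (gf s T (UL μ (2 * δ) T V)) (gf s T (UL μ (2 * δ) T V))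
    ≤ 2 * κ * DE μ s (UL μ (2 * δ) s V) (gf s T (UL μ (2 * δ) T V))
      + C * LS.FI μ s (UL μ (2 * δ) s V) / κ
  gf_pair : LS.FI μ T (UL μ (2 * δ) T V) - τ / 5 * LS.FI μ s (UL μ (2 * δ) s V)
      - C * LS.FI μ s (UL μ (2 * δ) s V) / κ
    ≤ IP μ s (UL μ (2 * δ) s V) (gf s T (UL μ (2 * δ) T V)) (sN (UL μ (2 * δ) s V))

/-- `(a, b)`-version of the estimate of a mixed term: `-e ≤ λ F / (2 s) + B / (2 λ)` if
`e² ≤ (F / s) B` -/
theorem mixed_le {e B F s lam : ℝ} (hs : 0 < s) (hl : 0 < lam) (hB : 0 ≤ B) (hF : 0 ≤ F)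
    (h : e ^ 2 ≤ F / s * B) : -e ≤ lam * F / (2 * s) + B / (2 * lam) := by
  set P : ℝ := lam * F / (2 * s) + B / (2 * lam) with hP
  have hP0 : 0 ≤ P := by positivity
  have h1 : F / s * B ≤ P ^ 2 := by
    have e1 : P ^ 2 - F / s * B = (lam * F / (2 * s) - B / (2 * lam)) ^ 2 := by
      rw [hP]; field_simp; ring
    have := sq_nonneg (lam * F / (2 * s) - B / (2 * lam))
    linarith only [e1, this]
  have h2 : |e| ≤ P := abs_le_of_sq_le_sq (h.trans h1) hP0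
  linarith only [neg_abs_le e, h2]

theorem pathU (C0 M τ : ℝ) (hC0 : 2000 ≤ C0) (hM : 1 ≤ M) (hτ : 0 < τ) (hτC : τ * C0 ≤ 1 / 2) :
    ∃ C K : ℝ, 0 < C ∧ 0 < K ∧ ∀ (n : ℕ) (ρ0 : (Fin n → ℝ) → ℝ) (R κ : ℝ), LCd ρ0 →
      IsProbabilityMeasure (mu ρ0) → CSupp (mu ρ0) R → ExpM (mu ρ0) 1 → K ≤ κ →
      DBS (mu ρ0) (2 * (κ / C0)) (κ / C0) κ 0 →
      ∀ (σ : ℝ) (N0 : (Fin n → ℝ) → ℝ), σ ∈ Icc (2 * (κ / C0)) (3 * (κ / C0)) → Pos N0 →
        EY (mu ρ0) σ N0 = 1 → 0 < LS.FI (mu ρ0) σ N0 →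
        (κ - 1) * LS.FI (mu ρ0) σ N0 ≤ LS.HE (mu ρ0) σ N0 →
        ∃ (s' s T : ℝ) (V : (Fin n → ℝ) → ℝ), UpOut (mu ρ0) κ (κ / C0) τ M C s' s T V := by
  set A1 : ℝ := 800 * C0 ^ 2 * (1 + M) + 4000 with hA1
  set A2 : ℝ := 10 + 8 * A1 / C0 with hA2
  have hC00 : 0 < C0 := by linarith only [hC0]
  have hA1p : 0 < A1 := by positivity
  have hA2p : 0 < A2 := by positivity
  obtain ⟨C1, K1, hC1, hK1, hD1⟩ := pathD C0 M τ (2 * A2) hC0 hM hτ hτC (by positivity)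
  set A3 : ℝ := 800 * C0 ^ 2 * (2 + M) + 8000 * A2 with hA3
  set B1 : ℝ := A3 + 4 * A2 * C0 with hB1
  have hA3p : 0 < A3 := by positivity
  have hB1p : 0 < B1 := by positivity
  have hA2t : 0 < A2 / τ := by positivity
  set C : ℝ := C1 + B1 + 8 * (A2 / τ) + 2 * A2 with hC
  have hCp : 0 < C := by positivity
  refine ⟨C, K1 + 10 ^ 4 + A1 + 10 ^ 4 * (3 * A2), hCp, by positivity, ?_⟩
  intro n ρ0 R κ hρ hprob hcs hexp hK hDBS σ N0 hσ hN0 hN01 hF0 hnear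
  have := hprob
  have hκK1 : K1 ≤ κ := by linarith only [hK, hA1p, hA2p]
  obtain hdown := hD1 n ρ0 R κ hρ hprob hcs hexp hκK1 hDBS
  set μ := mu ρ0 with hμ
  have hκ4 : 10 ^ 4 ≤ κ := by linarith only [hK, hA1p, hA2p, hK1]
  have hκA1 : A1 ≤ κ := by linarith only [hK, hA1p, hA2p, hK1]
  have hκA2 : 10 ^ 4 * (3 * A2) ≤ κ := by linarith only [hK, hA1p, hA2p, hK1]
  have hκ : 0 < κ := by linarith only [hκ4]
  set δ : ℝ := κ / C0 with hδdef
  have hδ : 0 < δ := by positivity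
  have hδκ : 2000 * δ ≤ κ := by
    rw [hδdef, mul_div_assoc', div_le_iff₀ hC00]
    have := mul_le_mul_of_nonneg_left hC0 hκ.le
    linarith only [this]
  have hδC : δ * C0 = κ := by rw [hδdef]; field_simp
  set F0 := LS.FI μ σ N0 with hF0def
  -- step 1: boot at `σ`
  have hx0 : 2 * δ * F0 ≤ M * κ * F0 := by
    apply mul_le_mul_of_nonneg_right _ hF0.le
    have := mul_le_mul_of_nonneg_right hM hκ.le
    linarith only [this, hδκ, hδ]
  have b1 := pred_boot hρ hcs hexp (α := F0) (x := M * κ * F0) hδ hδκ hDBS hσ hN0 hN01 hF0.le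
    (mul_le_mul_of_nonneg_right hκ4 hF0.le) (by
      rw [← hF0def]; linarith only [hnear]) hx0
  rw [← hF0def] at b1
  have e2 : 800 / δ ^ 2 * (κ * F0 + M * κ * F0) + 4000 * F0 / κ = A1 * F0 / κ := by
    rw [hA1, hδdef]; field_simp
  rw [e2] at b1
  have hX1 : A1 * F0 / κ ≤ F0 := by
    rw [div_le_iff₀ hκ, mul_comm F0 κ]
    exact mul_le_mul_of_nonneg_right hκA1 hF0.le
  -- step 2: the up path
  obtain ⟨⟨hV, -, -⟩, -, hup⟩ := thPathA' n ρ0 R hρ hprob hcs N0 (PH (σ - 2 * δ) N0) δ κ σ F0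
    (M * κ * F0) (A1 * F0 / κ) 0 hδ hδκ hDBS hσ hN0 hN01 hF0.le
    (mul_le_mul_of_nonneg_right hκ4 hF0.le) (by
      rw [← hF0def]; linarith only [hnear]) hx0 (by positivity) hX1 b1 rfl
  set V := PH (σ - 2 * δ) N0 with hVdef
  set s : ℝ := 5 / 2 * δ with hsdef
  have hs : s ∈ Icc (2 * δ) (3 * δ) := ⟨by rw [hsdef]; linarith only [hδ], by
    rw [hsdef]; linarith only [hδ]⟩
  have hs0 : 0 < s := by rw [hsdef]; positivity
  have hδ2 : 0 < 2 * δ := by positivity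
  set F := LS.FI μ s (UL μ (2 * δ) s V) with hF
  have hα1 : 10 * F0 + 8 * δ * (A1 * F0 / κ) = A2 * F0 := by
    rw [hA2, hδdef]; field_simp
  rw [hα1] at hup
  have hF98 : 98 / 100 * F0 ≤ F := (hup s hs).2.2.2.2.2.1
  have hFF0 : F ≤ F0 := (hup s hs).2.2.2.2.1
  have hFp : 0 < F := by linarith only [hF98, hF0]
  have hF0F : F0 ≤ 103 / 100 * F := by linarith only [hF98, hF0]
  have hA2F : 0 < A2 * F := by positivity
  have hA2F0 : A2 * F0 ≤ 103 / 100 * (A2 * F) := by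
    have := mul_le_mul_of_nonneg_left hF0F hA2p.le
    linarith only [this]
  -- all levels
  have hsl : ∀ ρ ∈ Icc (2 * δ) (3 * δ),
      0 ≤ κ * LS.FI μ ρ (UL μ (2 * δ) ρ V) - LS.HE μ ρ (UL μ (2 * δ) ρ V) ∧
      κ * LS.FI μ ρ (UL μ (2 * δ) ρ V) - LS.HE μ ρ (UL μ (2 * δ) ρ V) ≤ 2 * A2 * F := by
    intro ρ h
    obtain ⟨-, -, h3, h4, -⟩ := hup ρ h
    exact ⟨by linarith only [h3], by linarith only [h4, hA2F0, hA2F]⟩
  have hlo : ∀ ρ ∈ Icc (2 * δ) (3 * δ), 98 / 100 * F ≤ LS.FI μ ρ (UL μ (2 * δ) ρ V) := by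
    intro ρ h
    have := (hup ρ h).2.2.2.2.2.1
    linarith only [this, hFF0]
  have hhi : ∀ ρ ∈ Icc (2 * δ) (3 * δ), LS.FI μ ρ (UL μ (2 * δ) ρ V) ≤ 103 / 100 * F := by
    intro ρ h
    exact ((hup ρ h).2.2.2.2.1).trans hF0F
  have hMκF : 0 < M * κ * F := by positivity
  have hpred : ∀ ρ ∈ Icc (2 * δ) (3 * δ), Pred μ ρ (UL μ (2 * δ) ρ V)
      (sN (UL μ (2 * δ) ρ V)) (M * κ * F) (A3 * F / κ) := by
    intro ρ h
    have hlo' := hlo ρ h
    have hhi' := hhi ρ h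
    have h1 := pred_boot hρ hcs hexp (α := 2 * A2 * F) (x := M * κ * F) hδ hδκ hDBS h
      (hup ρ h).1 (hup ρ h).2.1 (by positivity) (by
        have h2 : 10 ^ 4 * (3 * A2) * F ≤ κ * F := mul_le_mul_of_nonneg_right hκA2 hFp.le
        have h3 : κ * (98 / 100 * F) ≤ κ * LS.FI μ ρ (UL μ (2 * δ) ρ V) :=
          mul_le_mul_of_nonneg_left hlo' hκ.le
        linarith only [h2, h3, hA2F]) (hsl ρ h).2 (by
        have h2 : 2 * δ * LS.FI μ ρ (UL μ (2 * δ) ρ V) ≤ 2 * δ * (103 / 100 * F) :=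
          mul_le_mul_of_nonneg_left hhi' hδ2.le
        have h3 : 2000 * δ * F ≤ κ * F := mul_le_mul_of_nonneg_right hδκ hFp.le
        have h4 : 1 * (κ * F) ≤ M * (κ * F) := mul_le_mul_of_nonneg_right hM (by positivity)
        have h5 : 0 < δ * F := by positivity
        linarith only [h2, h3, h4, h5])
    intro l hl hI
    refine (h1 l hl hI).trans ?_
    have h6 : 800 / δ ^ 2 * (κ * LS.FI μ ρ (UL μ (2 * δ) ρ V) + M * κ * F)
        ≤ 800 / δ ^ 2 * (κ * (2 * F) + M * κ * F) := by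
      apply mul_le_mul_of_nonneg_left _ (by positivity)
      have : κ * LS.FI μ ρ (UL μ (2 * δ) ρ V) ≤ κ * (2 * F) :=
        mul_le_mul_of_nonneg_left (by linarith only [hhi', hFp]) hκ.le
      linarith only [this]
    have e3 : 800 / δ ^ 2 * (κ * (2 * F) + M * κ * F) + 4000 * (2 * A2 * F) / κ
        = A3 * F / κ := by
      rw [hA3, hδdef]; field_simp; ring
    linarith only [h6, e3]
  have hsnU : ∀ ρ ∈ Icc (2 * δ) (3 * δ), ∀ i, SB (sN (UL μ (2 * δ) ρ V) i) := fun ρ h i =>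
    (hup ρ h).1.div ((hup ρ h).1.sb.pd i)
  have hrev : ∀ ρ ∈ Icc (2 * δ) (3 * δ), ∀ φ : Fin n → (Fin n → ℝ) → ℝ, (∀ i, SB (φ i)) →
      Pred μ ρ (UL μ (2 * δ) ρ V) φ (M * κ * F) (A3 * F / κ) →
      IP μ ρ (UL μ (2 * δ) ρ V) φ φ ≤ 2 * F →
      IP μ ρ (UL μ (2 * δ) ρ V) φ φ ≤ 2 * κ * DE μ ρ (UL μ (2 * δ) ρ V) φ + B1 * F / κ := by
    intro ρ h φ hφ hP hIP
    have h1 := reveal_ineq (thRv n) (r := ρ) (δ := δ) (κ := κ) (D := 0) (K := A3 * F / κ)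
      (x := M * κ * F) (φ := φ) (hδ2.le.trans h.1) hδ (hup ρ h).1 (hup ρ h).2.1 hφ
      (hDBS ρ ⟨h.1, by linarith only [h.2]⟩) hP (by
        have h2 : δ / 2 * IP μ ρ (UL μ (2 * δ) ρ V) φ φ ≤ δ / 2 * (2 * F) :=
          mul_le_mul_of_nonneg_left hIP (by positivity)
        have h3 : 2000 * δ * F ≤ κ * F := mul_le_mul_of_nonneg_right hδκ hFp.le
        have h4 : 1 * (κ * F) ≤ M * (κ * F) := mul_le_mul_of_nonneg_right hM (by positivity)
        have h5 : 0 < δ * F := by positivity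
        linarith only [h2, h3, h4, h5])
    have h6 : 2 * (0 - LS.HE μ ρ (UL μ (2 * δ) ρ V) + κ * LS.FI μ ρ (UL μ (2 * δ) ρ V)) / δ
        ≤ 2 * (2 * A2 * F) / δ :=
      div_le_div_of_nonneg_right (by have := (hsl ρ h).2; linarith only [this]) hδ.le
    have h7 : 2 * (2 * A2 * F) / δ = 4 * A2 * C0 * F / κ := by
      rw [hδdef]; field_simp; ring
    have h8 : B1 * F / κ = A3 * F / κ + 4 * A2 * C0 * F / κ := by rw [hB1]; ring
    linarith only [h1, h6, h7, h8]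
  have hga : ∀ ρ ∈ Icc (2 * δ) (3 * δ), LS.FI μ ρ (UL μ (2 * δ) ρ V)
      ≤ 2 * κ * LS.GA μ ρ (UL μ (2 * δ) ρ V) + B1 * F / κ := by
    intro ρ h
    have h1 := hrev ρ h (sN (UL μ (2 * δ) ρ V)) (hsnU ρ h) (hpred ρ h) (by
      rw [← (thCo n μ ρ _ (hup ρ h).1).1.1]
      have := hhi ρ h
      linarith only [this, hFp])
    rwa [← (thCo n μ ρ _ (hup ρ h).1).1.1, ← (thCo n μ ρ _ (hup ρ h).1).1.2] at h1
  have hsemi : ∀ r1 r2 : ℝ, 2 * δ ≤ r1 → r1 ≤ r2 →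
      UL μ r1 r2 (UL μ (2 * δ) r1 V) = UL μ (2 * δ) r2 V := fun r1 r2 h1 h2 =>
    (thK n μ R hcs).2.2 (2 * δ) r1 r2 V hδ2 h1 h2 ⟨hV.sb.measurable, hV.sb.bdd⟩
  -- the down branch
  have hτκ : τ * κ ≤ δ / 2 := by
    rw [← hδC]
    have := mul_le_mul_of_nonneg_left hτC hδ.le
    linarith only [this]
  have hτκ0 : 0 < τ * κ := by positivity
  obtain ⟨s', hs'⟩ := hdown (UL μ (2 * δ) s V) (hup s hs).1 (hup s hs).2.1 hFp (hsl s hs).2
  -- the up branch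
  set W := UL μ (2 * δ) s V with hW
  have hWU : ∀ ρ, s ≤ ρ → UL μ s ρ W = UL μ (2 * δ) ρ V := fun ρ h => hsemi s ρ hs.1 h
  obtain ⟨cH, cJ, dH, dJ, -⟩ := thU' n μ R hcs W s (3 * δ) (hup s hs).1 hs0 hs.2
  set H : ℝ → ℝ := fun ρ => LS.HE μ ρ (UL μ s ρ W) with hHdef
  set J : ℝ → ℝ := fun ρ => LS.FI μ ρ (UL μ s ρ W) with hJdef
  set Γ : ℝ → ℝ := fun ρ => LS.GA μ ρ (UL μ s ρ W) with hΓdef
  set B : ℝ → ℝ := fun ρ => BI μ ρ (UL μ s ρ W) (sN (UL μ s ρ W)) (sN (UL μ s ρ W)) with hBdef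
  have hwin : ∀ ρ ∈ Icc s (3 * δ), ρ ∈ Icc (2 * δ) (3 * δ) := fun ρ h => ⟨hs.1.trans h.1, h.2⟩
  have hposW : ∀ ρ ∈ Icc s (3 * δ), Pos (UL μ s ρ W) := fun ρ h => by
    rw [hWU ρ h.1]; exact (hup ρ (hwin ρ h)).1
  have hsnW : ∀ ρ ∈ Icc s (3 * δ), ∀ i, SB (sN (UL μ s ρ W) i) := fun ρ h i =>
    (hposW ρ h).div ((hposW ρ h).sb.pd i)
  have hJs : J s = F := by
    show LS.FI μ s (UL μ s s W) = F
    rw [hWU s le_rfl]
  have hΓ0 : ∀ ρ ∈ Icc s (3 * δ), 0 ≤ Γ ρ := fun ρ h => ga_nonneg μ (hposW ρ h)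
  have hB0 : ∀ ρ ∈ Icc s (3 * δ), 0 ≤ B ρ := fun ρ h =>
    (thP n ρ0 R hρ hprob hcs ρ (UL μ s ρ W) _ _ (hs0.trans_le h.1) (hposW ρ h)
      (hsnW ρ h) (hsnW ρ h)).1
  have hss : s ∈ Icc s (3 * δ) := ⟨le_rfl, hs.2⟩
  have hJanti : ∀ ρ ∈ Icc s (3 * δ), J ρ ≤ F := by
    have h1 := mono_of_deriv (f := fun v => -J v) (f' := fun v => Γ v + 2 * B v)
      (a := s) (b := 3 * δ) cJ.neg (fun v hv => ((dJ v hv).neg).congr_deriv (by
        show - -(Γ v + 2 * B v) = _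
        ring)) (fun v hv => by
        have hv' : v ∈ Icc s (3 * δ) := ⟨hv.1.le, hv.2.le⟩
        have h2 := hΓ0 v hv'
        have h3 := hB0 v hv'
        linarith only [h2, h3])
    intro v hv
    have h2 := h1 hss hv hv.1
    simp only at h2
    rw [hJs] at h2
    linarith only [h2]
  have hyW : ∀ ρ ∈ Icc s (3 * δ), 0 ≤ κ * J ρ - H ρ ∧ κ * J ρ - H ρ ≤ 2 * A2 * F := by
    intro ρ h
    have h1 := hsl ρ (hwin ρ h)
    show 0 ≤ κ * LS.FI μ ρ (UL μ s ρ W) - LS.HE μ ρ (UL μ s ρ W) ∧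
      κ * LS.FI μ ρ (UL μ s ρ W) - LS.HE μ ρ (UL μ s ρ W) ≤ 2 * A2 * F
    rw [hWU ρ h.1]
    exact h1
  have hHd : ∀ ρ ∈ Icc s (3 * δ), H s - H ρ ≤ F / 2 * (ρ - s) := by
    have h1 := mono_of_deriv (f := fun v => F / 2 * v + H v)
      (f' := fun v => F / 2 * 1 + -(1 / 2) * J v) (a := s) (b := 3 * δ)
      ((Continuous.continuousOn (by fun_prop)).add cH)
      (fun v hv => ((hasDerivAt_id v).const_mul (F / 2)).add (dH v hv))
      (fun v hv => by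
        have := hJanti v ⟨hv.1.le, hv.2.le⟩
        linarith only [this])
    intro ρ h
    have h2 := h1 hss h h.1
    simp only at h2
    linarith only [h2]
  have hdrop : ∀ ρ ∈ Icc s (3 * δ), F - J ρ ≤ (ρ - s) / (2 * κ) * F + 2 * A2 * F / κ := by
    intro ρ h
    have h1 := (hyW ρ h).1
    have h2 := hHd ρ h
    have h3 := (hyW s hss).2
    rw [hJs] at h3
    have h4 : κ * (F - J ρ) ≤ F / 2 * (ρ - s) + 2 * A2 * F := by linarith only [h1, h2, h3]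
    have h5 : F - J ρ ≤ (F / 2 * (ρ - s) + 2 * A2 * F) / κ := by
      rw [le_div_iff₀ hκ]; linarith only [h4]
    refine h5.trans (le_of_eq ?_)
    field_simp
  set a : ℝ := s + τ * κ / 2 with ha
  set b : ℝ := s + τ * κ with hb
  have hab : a < b := by rw [ha, hb]; linarith only [hτκ0]
  have hb3 : b ≤ 3 * δ := by rw [hb, hsdef]; linarith only [hτκ]
  have hsub : ∀ v ∈ Icc a b, v ∈ Icc s (3 * δ) := fun v hv =>
    ⟨by have := hv.1; linarith only [this, ha, hτκ0], hv.2.trans hb3⟩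
  have hsubo : ∀ v ∈ Ioo a b, v ∈ Ioo s (3 * δ) := fun v hv =>
    ⟨by have := hv.1; linarith only [this, ha, hτκ0], hv.2.trans_le hb3⟩
  obtain ⟨T, hT, hTd⟩ := exists_hasDerivAt_eq_slope (fun v => κ * J v - H v)
    (fun v => κ * -(Γ v + 2 * B v) - -(1 / 2) * J v) hab
    (((continuousOn_const.mul cJ).sub cH).mono fun v hv => hsub v hv)
    (fun v hv => ((dJ v (hsubo v hv)).const_mul κ).sub (dH v (hsubo v hv)))
  have hTI : T ∈ Icc s (3 * δ) := hsub T ⟨hT.1.le, hT.2.le⟩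
  have hTW : T ∈ Icc (2 * δ) (3 * δ) := hwin T hTI
  have hsT : s ≤ T := hTI.1
  have hWT : UL μ s T W = UL μ (2 * δ) T V := hWU T hsT
  have htop : 2 * κ * (Γ T + 2 * B T) ≤ J T + 8 * (A2 / τ) * F / κ := by
    have h1 := (hyW b (hsub b ⟨hab.le, le_rfl⟩)).1
    have h2 := (hyW a (hsub a ⟨le_rfl, hab.le⟩)).2
    have hba : b - a = τ * κ / 2 := by rw [ha, hb]; ring
    have h3 : -(2 * A2 * F) / (τ * κ / 2) ≤ κ * -(Γ T + 2 * B T) - -(1 / 2) * J T := by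
      rw [hTd, hba]
      exact div_le_div_of_nonneg_right (by linarith only [h1, h2]) (by positivity)
    have e4 : -(2 * A2 * F) / (τ * κ / 2) = -(4 * (A2 / τ) * F / κ) := by field_simp; ring
    rw [e4] at h3
    have e5 : 8 * (A2 / τ) * F / κ = 2 * (4 * (A2 / τ) * F / κ) := by ring
    rw [e5]
    linarith only [h3]
  -- the gradient field
  have hφ : ∀ i, SB (sN (UL μ (2 * δ) T V) i) := hsnU T hTW
  have hgsb : ∀ i, SB (gf s T (UL μ (2 * δ) T V) i) := fun i => PH_sb (hφ i) _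
  obtain ⟨-, -, -, -, hφU⟩ := thU' n μ R hcs W s T (hup s hs).1 hs0 hsT
  obtain ⟨c1, c2, d1, d2⟩ := hφU (sN (UL μ (2 * δ) T V)) hφ
  have hsT' : s ∈ Icc s T := ⟨le_rfl, hsT⟩
  have hTT' : T ∈ Icc s T := ⟨hsT, le_rfl⟩
  have hlev3 : ∀ v ∈ Icc s T, v ∈ Icc s (3 * δ) := fun v hv => ⟨hv.1, hv.2.trans hTI.2⟩
  have hWs : UL μ s s W = W := hWU s le_rfl
  have hPsb : ∀ v : ℝ, ∀ i, SB (PH (T - v) (sN (UL μ (2 * δ) T V) i)) := fun v i =>
    PH_sb (hφ i) _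
  have hgmono : ∀ v ∈ Icc s T, IP μ v (UL μ s v W)
      (fun i => PH (T - v) (sN (UL μ (2 * δ) T V) i))
      (fun i => PH (T - v) (sN (UL μ (2 * δ) T V) i)) ≤ LS.FI μ T (UL μ (2 * δ) T V) := by
    have h1 := mono_of_deriv c1 d1 (fun w hw =>
      ((thCo n μ w _ (hposW w (hlev3 w ⟨hw.1.le, hw.2.le⟩))).2.1
        (fun i => PH (T - w) (sN (UL μ (2 * δ) T V) i))
        (fun i => PH (T - w) (sN (UL μ (2 * δ) T V) i)) (hPsb w) (hPsb w)).2.1)
    intro v hv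
    have h2 := h1 hv hTT' hv.2
    simp only [sub_self, PH_zero] at h2
    refine h2.trans (le_of_eq ?_)
    rw [hWT, (thCo n μ T _ (hup T hTW).1).1.1]
  have hgle : IP μ s W (gf s T (UL μ (2 * δ) T V)) (gf s T (UL μ (2 * δ) T V))
      ≤ LS.FI μ T (UL μ (2 * δ) T V) := by
    have h1 := hgmono s hsT'
    rw [hWs] at h1
    exact h1
  have hFIT : LS.FI μ T (UL μ (2 * δ) T V) ≤ F := by
    have h1 := hJanti T hTI
    have h2 : J T = LS.FI μ T (UL μ (2 * δ) T V) := by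
      show LS.FI μ T (UL μ s T W) = _
      rw [hWT]
    rwa [h2] at h1
  have hgpred : Pred μ s W (gf s T (UL μ (2 * δ) T V)) (M * κ * F) (A3 * F / κ) := by
    have h1 := (thT' n μ R hcs W s T (M * κ * F) (A3 * F / κ) (hup s hs).1 hs0 hsT).2.2.1
      (hup s hs).2.1 (sN (UL μ (2 * δ) T V)) hφ
    rw [hWT] at h1
    exact h1 (hpred T hTW)
  have hgnear : IP μ s W (gf s T (UL μ (2 * δ) T V)) (gf s T (UL μ (2 * δ) T V))
      ≤ 2 * κ * DE μ s W (gf s T (UL μ (2 * δ) T V)) + B1 * F / κ :=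
    hrev s hs _ hgsb hgpred (hgle.trans (by linarith only [hFIT, hFp]))
  -- the pairing with the score
  set cc : ℝ → ℝ := fun ρ => IP μ ρ (UL μ s ρ W) (fun i => PH (T - ρ) (sN (UL μ (2 * δ) T V) i))
    (sN (UL μ s ρ W)) with hccdef
  have hccT : cc T = LS.FI μ T (UL μ (2 * δ) T V) := by
    show IP μ T (UL μ s T W) (fun i => PH (T - T) (sN (UL μ (2 * δ) T V) i))
      (sN (UL μ s T W)) = _
    simp only [sub_self, PH_zero, hWT]
    exact ((thCo n μ T _ (hup T hTW).1).1.1).symm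
  have hccs : cc s = IP μ s W (gf s T (UL μ (2 * δ) T V)) (sN W) := by
    show IP μ s (UL μ s s W) (fun i => PH (T - s) (sN (UL μ (2 * δ) T V) i))
      (sN (UL μ s s W)) = _
    rw [hWs]
    rfl
  set G : ℝ → ℝ := fun ρ => (τ * F / (2 * s) + B1 * F / (8 * τ * κ ^ 2)) * ρ
    - (κ * J ρ - H ρ) / (4 * τ * κ) - cc ρ with hG
  have hIT : Icc s T ⊆ Icc s (3 * δ) := fun v hv => hlev3 v hv
  have hGmono := mono_of_deriv (f := G)
    (f' := fun v => (τ * F / (2 * s) + B1 * F / (8 * τ * κ ^ 2)) * 1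
      - (κ * -(Γ v + 2 * B v) - -(1 / 2) * J v) / (4 * τ * κ)
      - -(BI μ v (UL μ s v W) (fun i => PH (T - v) (sN (UL μ (2 * δ) T V) i))
        (sN (UL μ s v W)))) (a := s) (b := T)
    ((((Continuous.continuousOn (by fun_prop))).sub
      ((((continuousOn_const.mul cJ).sub cH).mono hIT).div_const _)).sub c2)
    (fun v hv => by
      have hv3 : v ∈ Ioo s (3 * δ) := ⟨hv.1, hv.2.trans_le hTI.2⟩
      exact ((((hasDerivAt_id v).const_mul _)).sub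
        ((((dJ v hv3).const_mul κ).sub (dH v hv3)).div_const _)).sub (d2 v hv))
    (fun v hv => by
      have hv3 : v ∈ Icc s (3 * δ) := hlev3 v ⟨hv.1.le, hv.2.le⟩
      have hv0 : 0 < v := hs0.trans hv.1
      have h1 := (thP n ρ0 R hρ hprob hcs v (UL μ s v W)
        (fun i => PH (T - v) (sN (UL μ (2 * δ) T V) i)) (sN (UL μ s v W))
        hv0 (hposW v hv3) (hPsb v) (hsnW v hv3)).2.2.1
      have h2 : 1 / v * IP μ v (UL μ s v W) (fun i => PH (T - v) (sN (UL μ (2 * δ) T V) i))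
          (fun i => PH (T - v) (sN (UL μ (2 * δ) T V) i)) ≤ F / s := by
        have h3 : 1 / v ≤ 1 / s := one_div_le_one_div_of_le hs0 hv.1.le
        have h4 := (hgmono v ⟨hv.1.le, hv.2.le⟩).trans hFIT
        have h5 := ((thCo n μ v _ (hposW v hv3)).2.1
          (fun i => PH (T - v) (sN (UL μ (2 * δ) T V) i))
          (fun i => PH (T - v) (sN (UL μ (2 * δ) T V) i)) (hPsb v) (hPsb v)).1
        calc _ ≤ 1 / s * F := mul_le_mul h3 h4 h5 (by positivity)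
          _ = F / s := by ring
      have h6 := mixed_le (lam := τ) hs0 hτ (hB0 v hv3) hFp.le
        (h1.trans (mul_le_mul_of_nonneg_right h2 (hB0 v hv3)))
      have h7 : J v ≤ 2 * κ * Γ v + B1 * F / κ := by
        have := hga v (hwin v hv3)
        show LS.FI μ v (UL μ s v W) ≤ 2 * κ * LS.GA μ v (UL μ s v W) + B1 * F / κ
        rw [hWU v hv3.1]
        exact this
      have h8 : (κ * -(Γ v + 2 * B v) - -(1 / 2) * J v) / (4 * τ * κ)
          ≤ (B1 * F / (2 * κ) - 2 * κ * B v) / (4 * τ * κ) := by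
        apply div_le_div_of_nonneg_right _ (by positivity)
        have e : B1 * F / (2 * κ) = 1 / 2 * (B1 * F / κ) := by field_simp
        rw [e]
        linarith only [h7]
      have h9 : (B1 * F / (2 * κ) - 2 * κ * B v) / (4 * τ * κ)
          = B1 * F / (8 * τ * κ ^ 2) - B v / (2 * τ) := by field_simp; ring
      rw [h9] at h8
      have h10 : -(BI μ v (UL μ s v W) (fun i => PH (T - v) (sN (UL μ (2 * δ) T V) i))
        (sN (UL μ s v W))) ≤ τ * F / (2 * s) + B v / (2 * τ) := h6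
      linarith only [h8, h10])
  have hpair : LS.FI μ T (UL μ (2 * δ) T V) - τ / 5 * F - C * F / κ
      ≤ IP μ s W (gf s T (UL μ (2 * δ) T V)) (sN W) := by
    have h1 := hGmono hsT' hTT' hsT
    simp only [hG] at h1
    rw [hccT, hccs] at h1
    have h2 := (hyW T hTI).1
    have h3 := (hyW s hss).2
    have h4 : 0 ≤ (κ * J T - H T) / (4 * τ * κ) := div_nonneg h2 (by positivity)
    have h5 : (κ * J s - H s) / (4 * τ * κ) ≤ 2 * A2 * F / (4 * τ * κ) :=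
      div_le_div_of_nonneg_right h3 (by positivity)
    have hTs : T - s ≤ τ * κ := by have := hT.2; linarith only [this, hb]
    have h6 : (τ * F / (2 * s) + B1 * F / (8 * τ * κ ^ 2)) * (T - s)
        ≤ (τ * F / (2 * s) + B1 * F / (8 * τ * κ ^ 2)) * (τ * κ) :=
      mul_le_mul_of_nonneg_left hTs (by positivity)
    have h7 : (τ * F / (2 * s) + B1 * F / (8 * τ * κ ^ 2)) * (τ * κ)
        = τ * F * (τ * C0) / 5 + B1 * F / (8 * κ) := by
      rw [hsdef, hδdef]; field_simp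
    have h8 : τ * F * (τ * C0) ≤ τ * F * (1 / 2) := mul_le_mul_of_nonneg_left hτC (by positivity)
    have h9 : 2 * A2 * F / (4 * τ * κ) = 1 / 2 * (A2 / τ) * F / κ := by field_simp; ring
    have h10 : C * F / κ = C1 * F / κ + B1 * F / κ + 8 * (A2 / τ) * F / κ + 2 * A2 * F / κ := by
      rw [hC]; ring
    have h11 : 0 < C1 * F / κ := by positivity
    have h12 : 0 < B1 * F / κ := by positivity
    have h13 : 0 < (A2 / τ) * F / κ := by positivity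
    have h14 : 0 < A2 * F / κ := by positivity
    have h15 : B1 * F / (8 * κ) = 1 / 8 * (B1 * F / κ) := by field_simp
    have h16 : 8 * (A2 / τ) * F / κ = 8 * ((A2 / τ) * F / κ) := by ring
    have h17 : 1 / 2 * (A2 / τ) * F / κ = 1 / 2 * ((A2 / τ) * F / κ) := by ring
    have h18 : 2 * A2 * F / κ = 2 * (A2 * F / κ) := by ring
    have h19 : 0 < τ * F := by positivity
    rw [h10, h16, h18]
    rw [h9, h17] at h5
    rw [h7, h15] at h6
    linarith only [h1, h4, h5, h6, h8, h11, h12, h13, h14, h19]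
  -- monotonicity in the constant
  have hCF : ∀ c : ℝ, c ≤ C → c * F / κ ≤ C * F / κ := fun c hc =>
    div_le_div_of_nonneg_right (mul_le_mul_of_nonneg_right hc hFp.le) hκ.le
  have hCF' : ∀ c : ℝ, c ≤ C → c * F ≤ C * F := fun c hc => mul_le_mul_of_nonneg_right hc hFp.le
  have hc1 : C1 ≤ C := by linarith only [hC, hB1p, hA2t, hA2p]
  have hc2 : B1 ≤ C := by linarith only [hC, hC1, hA2t, hA2p]
  have hc3 : A3 ≤ C := by
    have : 0 < A2 * C0 := by positivity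
    linarith only [hC, hC1, hA2t, hA2p, hB1, this]
  have hc4 : 8 * (A2 / τ) ≤ C := by linarith only [hC, hC1, hB1p, hA2p]
  have hc5 : 2 * A2 ≤ C := by linarith only [hC, hC1, hB1p, hA2t]
  have hdownC : PathOut μ κ δ τ M C s' s W := by
    refine ⟨hs'.T_eq, hs'.s_mem, hs'.s_ge, hs'.pos, hs'.one, hs'.fi, hs'.posρ, hs'.oneρ,
      hs'.he_le, fun ρ h => (hs'.slack ρ h).trans (hCF' _ hc1), hs'.fi_le, hs'.fi_ge,
      hs'.fi_drop.trans (by have := hCF _ hc1; linarith only [this]),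
      fun ρ h l hl hI => (hs'.pred ρ h l hl hI).trans (hCF _ hc1),
      fun ρ h => (hs'.ga_ge ρ h).trans (by have := hCF _ hc1; linarith only [this]),
      hs'.bot.trans (by have := hCF _ hc1; linarith only [this]), hs'.mf_sb, hs'.mf_bot,
      hs'.mf_le, hs'.mf_ge, hs'.mf_pair,
      fun ρ h l hl hI => (hs'.mf_pred ρ h l hl hI).trans (hCF _ hc1),
      fun ρ h => (hs'.mf_near ρ h).trans (by have := hCF _ hc1; linarith only [this])⟩
  refine ⟨s', s, T, V, hdownC, ⟨hT.1.le, hT.2.le⟩, hTI.2, hV, fun ρ h => (hup ρ h).1,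
    fun ρ h => (hup ρ h).2.1, fun ρ h => ?_, fun ρ h => ((hsl ρ h).2).trans (hCF' _ hc5),
    hlo, hhi, hFIT, ?_, hsemi, fun ρ h l hl hI => (hpred ρ h l hl hI).trans (hCF _ hc3), ?_,
    hgsb, fun i => ?_, hgle, fun l hl hI => (hgpred l hl hI).trans (hCF _ hc3),
    hgnear.trans (by have := hCF _ hc2; linarith only [this]), hpair⟩
  · have := (hsl ρ h).1
    linarith only [this]
  · have h1 := hdrop T hTI
    have h2 : J T = LS.FI μ T (UL μ (2 * δ) T V) := by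
      show LS.FI μ T (UL μ s T W) = _
      rw [hWT]
    rw [h2] at h1
    exact h1.trans (by have := hCF _ hc5; linarith only [this])
  · have h1 := htop
    have h2 : J T = LS.FI μ T (UL μ (2 * δ) T V) := by
      show LS.FI μ T (UL μ s T W) = _
      rw [hWT]
    have h3 : Γ T = LS.GA μ T (UL μ (2 * δ) T V) := by
      show LS.GA μ T (UL μ s T W) = _
      rw [hWT]
    have h4 : B T = BI μ T (UL μ (2 * δ) T V) (sN (UL μ (2 * δ) T V))
        (sN (UL μ (2 * δ) T V)) := by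
      show BI μ T (UL μ s T W) (sN (UL μ s T W)) (sN (UL μ s T W)) = _
      rw [hWT]
    rw [h2, h3, h4] at h1
    exact h1.trans (by have := hCF _ hc4; linarith only [this])
  · rw [LS.pd_PH (hup T hTW).1.log]
    show PH (T - s) (sN (UL μ (2 * δ) T V) i) = _
    rw [(hup T hTW).1.pd_log i]
    rfl

end Vale.Agent.P245.H440
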